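import Mathlib

open MeasureTheory ProbabilityTheory Finset
open scoped BigOperators

namespace Vale.H15.P157

/-- standard Gaussian measure on `ι → ℝ` -/
noncomputable abbrev gam (ι : Type*) [Fintype ι] : Measure (ι → ℝ) :=
  Measure.pi (fun _ : ι => gaussianReal 0 1)

lemma gauss_char {ι : Type*} [Fintype ι] (θ : ι → ℝ) :
    ∫ g, Complex.exp (Complex.I * ((∑ i, θ i * g i : ℝ) : ℂ)) ∂(gam ι)
      = ((Real.exp (-(∑ i, θ i ^ 2) / 2) : ℝ) : ℂ) := by
  have h1 : ∀ g : ι → ℝ, Complex.exp (Complex.I * ((∑ i, θ i * g i : ℝ) : ℂ))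
      = ∏ i, Complex.exp (Complex.I * ((θ i * g i : ℝ) : ℂ)) := by
    intro g
    rw [← Complex.exp_sum, ← Finset.mul_sum]
    push_cast
    rfl
  simp_rw [h1]
  rw [integral_fintype_prod_eq_prod (fun i (x : ℝ) => Complex.exp (Complex.I * ((θ i * x : ℝ) : ℂ)))]
  have h2 : ∀ i, ∫ x : ℝ, Complex.exp (Complex.I * ((θ i * x : ℝ) : ℂ)) ∂(gaussianReal 0 1)
      = Complex.exp (-(θ i : ℂ) ^ 2 / 2) := by
    intro i
    have h := charFun_gaussianReal (μ := 0) (v := 1) (θ i)
    rw [charFun_apply_real] at h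
    have h3 : ∀ x : ℝ, Complex.exp (Complex.I * ((θ i * x : ℝ) : ℂ))
        = Complex.exp (θ i * x * Complex.I) := by
      intro x; congr 1; push_cast; ring
    simp_rw [h3]
    rw [h]
    congr 1
    simp
    ring
  simp_rw [h2]
  rw [← Complex.exp_sum, Complex.ofReal_exp]
  congr 1
  push_cast
  rw [← Finset.sum_div, Finset.sum_neg_distrib]

lemma norm_cexp_I (x : ℝ) : ‖Complex.exp (Complex.I * (x : ℂ))‖ = 1 := by
  rw [mul_comm]
  exact Complex.norm_exp_ofReal_mul_I x

/-- Fubini with the Gaussian characteristic function. -/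
lemma swap_gauss {ι Ω : Type*} [Fintype ι] [MeasurableSpace Ω] (P : Measure Ω) [IsFiniteMeasure P]
    (W : Ω → ℝ) (hW : Measurable W) (B : ℝ) (hWB : ∀ ω, |W ω| ≤ B)
    (Θ : Ω → ι → ℝ) (hΘ : Measurable Θ) :
    ∫ g, ∫ ω, (W ω : ℂ) * Complex.exp (Complex.I * ((∑ i, Θ ω i * g i : ℝ) : ℂ)) ∂P ∂(gam ι)
      = ((∫ ω, W ω * Real.exp (-(∑ i, Θ ω i ^ 2) / 2) ∂P : ℝ) : ℂ) := by
  rw [integral_integral_swap]
  · rw [← integral_complex_ofReal]
    apply integral_congr_ae
    filter_upwards with ω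
    rw [integral_const_mul, gauss_char]
    push_cast
    rfl
  · have hmeas : Measurable (fun p : (ι → ℝ) × Ω => (W p.2 : ℂ) *
        Complex.exp (Complex.I * ((∑ i, Θ p.2 i * p.1 i : ℝ) : ℂ))) := by
      have h1 : Measurable (fun p : (ι → ℝ) × Ω => (∑ i, Θ p.2 i * p.1 i : ℝ)) := by
        apply Finset.measurable_sum
        intro i _
        exact ((measurable_pi_apply i).comp (hΘ.comp measurable_snd)).mul
          ((measurable_pi_apply i).comp measurable_fst)
      have h2 : Measurable (fun p : (ι → ℝ) × Ω => W p.2) := hW.comp measurable_snd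
      fun_prop
    refine Integrable.of_bound (C := B) hmeas.aestronglyMeasurable ?_
    filter_upwards with p
    show ‖(W p.2 : ℂ) * Complex.exp (Complex.I * ((∑ i, Θ p.2 i * p.1 i : ℝ) : ℂ))‖ ≤ B
    rw [norm_mul, norm_cexp_I, mul_one, Complex.norm_real]
    exact hWB _

variable {ι Ω X : Type*} [Fintype ι] [MeasurableSpace Ω] [Fintype X]

/-- complex representation of the averaged oscillating weight -/
noncomputable def T (P : Measure Ω) (w A : Ω → ℝ) (q : X → ℝ) (y : X → ι → ℝ) (g : ι → ℝ) : ℂ :=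
  ∑ x, (q x : ℂ) * ∫ ω, (w ω : ℂ) * Complex.exp (Complex.I * ((A ω * ∑ i, y x i * g i : ℝ) : ℂ)) ∂P

/-- the quadratic form appearing in moments -/
noncomputable def quad {k : ℕ} (A : Ω → ℝ) (y : X → ι → ℝ) (xs : Fin k → X) (ω : Fin k → Ω) : ℝ :=
  ∑ i, (∑ l, A (ω l) * y (xs l) i) ^ 2

lemma T_pow (P : Measure Ω) [IsFiniteMeasure P] (w A : Ω → ℝ) (q : X → ℝ) (y : X → ι → ℝ)
    (g : ι → ℝ) (k : ℕ) :
    (T P w A q y g) ^ k = ∑ xs : Fin k → X, ((∏ l, q (xs l) : ℝ) : ℂ) *
      ∫ ω : Fin k → Ω, ((∏ l, w (ω l) : ℝ) : ℂ) *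
        Complex.exp (Complex.I * ((∑ i, (∑ l, A (ω l) * y (xs l) i) * g i : ℝ) : ℂ))
        ∂(Measure.pi fun _ => P) := by
  unfold T
  rw [Fintype.sum_pow]
  apply Finset.sum_congr rfl
  intro xs _
  rw [Finset.prod_mul_distrib]
  congr 1
  · push_cast; rfl
  · rw [← integral_fintype_prod_eq_prod (fun l (ω : Ω) => (w ω : ℂ) *
      Complex.exp (Complex.I * ((A ω * ∑ i, y (xs l) i * g i : ℝ) : ℂ)))]
    apply integral_congr_ae
    filter_upwards with ω
    rw [Finset.prod_mul_distrib, ← Complex.exp_sum, ← Finset.mul_sum]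
    congr 1
    · push_cast; rfl
    · congr 2
      rw [← Complex.ofReal_sum]
      congr 1
      simp_rw [Finset.mul_sum, Finset.sum_mul]
      rw [Finset.sum_comm]
      apply Finset.sum_congr rfl
      intro i _
      apply Finset.sum_congr rfl
      intro l _
      ring

omit [MeasurableSpace Ω] in
lemma abs_prod_le_one {k : ℕ} (w : Ω → ℝ) (hw : ∀ a, |w a| ≤ 1) (ω : Fin k → Ω) :
    |∏ l, w (ω l)| ≤ 1 := by
  rw [Finset.abs_prod]
  apply Finset.prod_le_one
  · intro i _; exact abs_nonneg _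
  · intro i _; exact hw _

lemma moment (P : Measure Ω) [IsFiniteMeasure P] (w A : Ω → ℝ) (hw : ∀ a, |w a| ≤ 1)
    (hwm : Measurable w) (hA : Measurable A)
    (q : X → ℝ) (y : X → ι → ℝ) (k : ℕ) :
    ∫ g, (T P w A q y g) ^ k ∂(gam ι) = ((∑ xs : Fin k → X, (∏ l, q (xs l)) *
      ∫ ω : Fin k → Ω, (∏ l, w (ω l)) * Real.exp (-(quad A y xs ω) / 2)
        ∂(Measure.pi fun _ => P) : ℝ) : ℂ) := by
  simp_rw [T_pow]
  have hΘ : ∀ xs : Fin k → X, Measurable (fun (ω : Fin k → Ω) (i : ι) => ∑ l, A (ω l) * y (xs l) i) := by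
    intro xs
    apply measurable_pi_lambda
    intro i
    apply Finset.measurable_sum
    intro l _
    exact (hA.comp (measurable_pi_apply l)).mul_const _
  have hWm : Measurable (fun ω : Fin k → Ω => ∏ l, w (ω l)) := by
    apply Finset.measurable_prod
    intro l _
    exact hwm.comp (measurable_pi_apply l)
  rw [integral_finsetSum]
  · rw [Complex.ofReal_sum]
    apply Finset.sum_congr rfl
    intro xs _
    rw [integral_const_mul, Complex.ofReal_mul]
    congr 1
    rw [swap_gauss (Measure.pi fun _ : Fin k => P) (fun ω => ∏ l, w (ω l)) hWm 1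
      (fun ω => abs_prod_le_one w hw ω) (fun ω i => ∑ l, A (ω l) * y (xs l) i) (hΘ xs)]
    rfl
  · intro xs _
    apply Integrable.const_mul
    have hmeas : Measurable (fun p : (ι → ℝ) × (Fin k → Ω) => ((∏ l, w (p.2 l) : ℝ) : ℂ) *
        Complex.exp (Complex.I * ((∑ i, (∑ l, A (p.2 l) * y (xs l) i) * p.1 i : ℝ) : ℂ))) := by
      have h1 : Measurable (fun p : (ι → ℝ) × (Fin k → Ω) =>
          (∑ i, (∑ l, A (p.2 l) * y (xs l) i) * p.1 i : ℝ)) := by
        apply Finset.measurable_sum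
        intro i _
        exact ((measurable_pi_apply i).comp ((hΘ xs).comp measurable_snd)).mul
          ((measurable_pi_apply i).comp measurable_fst)
      have h2 : Measurable (fun p : (ι → ℝ) × (Fin k → Ω) => ∏ l, w (p.2 l)) :=
        hWm.comp measurable_snd
      fun_prop
    refine Integrable.of_bound (C := ((Measure.pi fun _ : Fin k => P).real Set.univ))
      (hmeas.stronglyMeasurable.integral_prod_right).aestronglyMeasurable ?_
    filter_upwards with g
    refine (norm_integral_le_of_norm_le_const (C := 1) ?_).trans (by rw [one_mul])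
    filter_upwards with ω
    rw [norm_mul, norm_cexp_I, mul_one, Complex.norm_real]
    exact abs_prod_le_one w hw ω

end Vale.H15.P157
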