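import Mathlib
import Vale.Agent.H15.P157.Moments

open MeasureTheory ProbabilityTheory Finset
open scoped BigOperators

namespace Vale.H15.P157

variable {ι Ω X : Type*} [Fintype ι] [MeasurableSpace Ω] [Fintype X]

/-- real moments -/
noncomputable def Mom (P : Measure Ω) (w A : Ω → ℝ) (q : X → ℝ) (y : X → ι → ℝ) (k : ℕ) : ℝ :=
  ∑ xs : Fin k → X, (∏ l, q (xs l)) *
      ∫ ω : Fin k → Ω, (∏ l, w (ω l)) * Real.exp (-(quad A y xs ω) / 2)
        ∂(Measure.pi fun _ => P)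

omit [MeasurableSpace Ω] [Fintype X] in
/-- block decomposition of the quadratic form -/
lemma quad_split (A : Ω → ℝ) (y1 y2 : X → ι → ℝ) (horth : ∀ x x', ∑ i, y1 x i * y2 x' i = 0)
    (p1 p2 : ℝ) (hp1 : 0 ≤ p1) (hp2 : 0 ≤ p2) {k : ℕ} (xs : Fin k → X) (ω : Fin k → Ω) :
    quad A (fun x i => Real.sqrt p1 * y1 x i + Real.sqrt p2 * y2 x i) xs ω
      = p1 * quad A y1 xs ω + p2 * quad A y2 xs ω := by
  unfold quad
  have h1 : ∀ i, ∑ l, A (ω l) * (Real.sqrt p1 * y1 (xs l) i + Real.sqrt p2 * y2 (xs l) i)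
      = Real.sqrt p1 * (∑ l, A (ω l) * y1 (xs l) i) + Real.sqrt p2 * (∑ l, A (ω l) * y2 (xs l) i) := by
    intro i
    rw [Finset.mul_sum, Finset.mul_sum, ← Finset.sum_add_distrib]
    apply Finset.sum_congr rfl
    intro l _
    ring
  simp_rw [h1]
  have h2 : ∀ i, (Real.sqrt p1 * (∑ l, A (ω l) * y1 (xs l) i)
      + Real.sqrt p2 * (∑ l, A (ω l) * y2 (xs l) i)) ^ 2
      = p1 * (∑ l, A (ω l) * y1 (xs l) i) ^ 2 + p2 * (∑ l, A (ω l) * y2 (xs l) i) ^ 2
        + 2 * Real.sqrt p1 * Real.sqrt p2 *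
          ((∑ l, A (ω l) * y1 (xs l) i) * (∑ l, A (ω l) * y2 (xs l) i)) := by
    intro i
    have e1 := Real.sq_sqrt hp1
    have e2 := Real.sq_sqrt hp2
    calc _ = (Real.sqrt p1 ^ 2) * (∑ l, A (ω l) * y1 (xs l) i) ^ 2
          + (Real.sqrt p2 ^ 2) * (∑ l, A (ω l) * y2 (xs l) i) ^ 2
          + 2 * Real.sqrt p1 * Real.sqrt p2 *
          ((∑ l, A (ω l) * y1 (xs l) i) * (∑ l, A (ω l) * y2 (xs l) i)) := by ring
      _ = _ := by rw [e1, e2]
  simp_rw [h2]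
  rw [Finset.sum_add_distrib, Finset.sum_add_distrib, ← Finset.mul_sum, ← Finset.mul_sum,
    ← Finset.mul_sum]
  have h3 : ∑ i, ((∑ l, A (ω l) * y1 (xs l) i) * (∑ l, A (ω l) * y2 (xs l) i)) = 0 := by
    simp_rw [Finset.sum_mul_sum]
    rw [Finset.sum_comm]
    apply Finset.sum_eq_zero
    intro l _
    rw [Finset.sum_comm]
    apply Finset.sum_eq_zero
    intro m _
    have : ∀ i, A (ω l) * y1 (xs l) i * (A (ω m) * y2 (xs m) i)
        = (A (ω l) * A (ω m)) * (y1 (xs l) i * y2 (xs m) i) := by intro i; ring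
    simp_rw [this]
    rw [← Finset.mul_sum, horth, mul_zero]
  rw [h3]
  ring

omit [MeasurableSpace Ω] [Fintype X] in
lemma quad_nonneg (A : Ω → ℝ) (y : X → ι → ℝ) {k : ℕ} (xs : Fin k → X) (ω : Fin k → Ω) :
    0 ≤ quad A y xs ω := by
  unfold quad
  exact Finset.sum_nonneg fun i _ => sq_nonneg _

omit [Fintype X] in
lemma quad_measurable (A : Ω → ℝ) (hA : Measurable A) (y : X → ι → ℝ) {k : ℕ} (xs : Fin k → X) :
    Measurable (fun ω : Fin k → Ω => quad A y xs ω) := by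
  unfold quad
  apply Finset.measurable_sum
  intro i _
  apply Measurable.pow_const
  apply Finset.measurable_sum
  intro l _
  exact (hA.comp (measurable_pi_apply l)).mul_const _

lemma integrable_term (P : Measure Ω) [IsFiniteMeasure P] (w A : Ω → ℝ) (hw : ∀ a, |w a| ≤ 1)
    (hwm : Measurable w) (hA : Measurable A) (y : X → ι → ℝ) {k : ℕ} (xs : Fin k → X) :
    Integrable (fun ω : Fin k → Ω => (∏ l, w (ω l)) * Real.exp (-(quad A y xs ω) / 2))
      (Measure.pi fun _ => P) := by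
  have hm : Measurable (fun ω : Fin k → Ω => (∏ l, w (ω l)) * Real.exp (-(quad A y xs ω) / 2)) := by
    apply Measurable.mul
    · apply Finset.measurable_prod
      intro l _
      exact hwm.comp (measurable_pi_apply l)
    · exact (((quad_measurable A hA y xs).neg).div_const 2).exp
  refine Integrable.of_bound (C := 1) hm.aestronglyMeasurable ?_
  filter_upwards with ω
  rw [norm_mul, Real.norm_eq_abs, Real.norm_eq_abs, Real.abs_exp]
  have h1 := abs_prod_le_one w hw ω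
  have h2 : Real.exp (-(quad A y xs ω) / 2) ≤ 1 := by
    rw [Real.exp_le_one_iff]
    have := quad_nonneg A y xs ω
    linarith
  calc |∏ l, w (ω l)| * Real.exp (-(quad A y xs ω) / 2) ≤ 1 * 1 :=
        mul_le_mul h1 h2 (Real.exp_pos _).le zero_le_one
    _ = 1 := one_mul 1

/-- convexity of the exponential -/
lemma exp_conv (p1 p2 u v : ℝ) (hp1 : 0 ≤ p1) (hp2 : 0 ≤ p2) (hp : p1 + p2 = 1) :
    Real.exp (-(p1 * u + p2 * v) / 2) ≤ p1 * Real.exp (-u / 2) + p2 * Real.exp (-v / 2) := by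
  have h := convexOn_exp.2 (Set.mem_univ (-u/2)) (Set.mem_univ (-v/2)) hp1 hp2 hp
  simp only [smul_eq_mul] at h
  calc Real.exp (-(p1 * u + p2 * v) / 2) = Real.exp (p1 * (-u / 2) + p2 * (-v / 2)) := by
        congr 1; ring
    _ ≤ _ := h

/-- nonnegative weights: the moment inequality -/
lemma Mom_le (P : Measure Ω) [IsFiniteMeasure P] (w A : Ω → ℝ) (hw : ∀ a, |w a| ≤ 1)
    (hw0 : ∀ a, 0 ≤ w a)
    (hwm : Measurable w) (hA : Measurable A) (q : X → ℝ) (hq : ∀ x, 0 ≤ q x)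
    (y1 y2 : X → ι → ℝ) (horth : ∀ x x', ∑ i, y1 x i * y2 x' i = 0)
    (p1 p2 : ℝ) (hp1 : 0 ≤ p1) (hp2 : 0 ≤ p2) (hp : p1 + p2 = 1) (k : ℕ) :
    Mom P w A q (fun x i => Real.sqrt p1 * y1 x i + Real.sqrt p2 * y2 x i) k
      ≤ p1 * Mom P w A q y1 k + p2 * Mom P w A q y2 k := by
  unfold Mom
  rw [Finset.mul_sum, Finset.mul_sum, ← Finset.sum_add_distrib]
  apply Finset.sum_le_sum
  intro xs _
  have hQ : 0 ≤ ∏ l, q (xs l) := Finset.prod_nonneg fun l _ => hq _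
  have h1 : ∫ ω : Fin k → Ω, (∏ l, w (ω l)) * Real.exp (-(quad A (fun x i => Real.sqrt p1 * y1 x i
        + Real.sqrt p2 * y2 x i) xs ω) / 2) ∂(Measure.pi fun _ => P)
      ≤ p1 * ∫ ω : Fin k → Ω, (∏ l, w (ω l)) * Real.exp (-(quad A y1 xs ω) / 2)
          ∂(Measure.pi fun _ => P)
        + p2 * ∫ ω : Fin k → Ω, (∏ l, w (ω l)) * Real.exp (-(quad A y2 xs ω) / 2)
          ∂(Measure.pi fun _ => P) := by
    rw [← integral_const_mul, ← integral_const_mul, ← integral_add]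
    · apply integral_mono
      · exact integrable_term P w A hw hwm hA _ xs
      · exact ((integrable_term P w A hw hwm hA y1 xs).const_mul p1).add
          ((integrable_term P w A hw hwm hA y2 xs).const_mul p2)
      · intro ω
        simp only
        rw [quad_split A y1 y2 horth p1 p2 hp1 hp2]
        have hW : 0 ≤ ∏ l, w (ω l) := Finset.prod_nonneg fun l _ => hw0 _
        have := mul_le_mul_of_nonneg_left
          (exp_conv p1 p2 (quad A y1 xs ω) (quad A y2 xs ω) hp1 hp2 hp) hW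
        calc _ ≤ _ := this
          _ = _ := by ring
    · exact (integrable_term P w A hw hwm hA y1 xs).const_mul p1
    · exact (integrable_term P w A hw hwm hA y2 xs).const_mul p2
  calc _ ≤ _ := mul_le_mul_of_nonneg_left h1 hQ
    _ = _ := by ring

/-- averaged real weight -/
noncomputable def tav (ψ : ℝ → ℝ) (q : X → ℝ) (y : X → ι → ℝ) (g : ι → ℝ) : ℝ :=
  ∑ x, q x * ψ (∑ i, y x i * g i)

lemma T_eq_tav (P : Measure Ω) (w A : Ω → ℝ) (q : X → ℝ) (y : X → ι → ℝ) (ψ : ℝ → ℝ)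
    (hψ : ∀ s : ℝ, ∫ ω, (w ω : ℂ) * Complex.exp (Complex.I * ((A ω * s : ℝ) : ℂ)) ∂P = (ψ s : ℂ))
    (g : ι → ℝ) : T P w A q y g = ((tav ψ q y g : ℝ) : ℂ) := by
  unfold T tav
  rw [Complex.ofReal_sum]
  apply Finset.sum_congr rfl
  intro x _
  rw [hψ, Complex.ofReal_mul]

lemma psi_bound (P : Measure Ω) [IsFiniteMeasure P] (w A : Ω → ℝ) (hw : ∀ a, |w a| ≤ 1)
    (ψ : ℝ → ℝ)
    (hψ : ∀ s : ℝ, ∫ ω, (w ω : ℂ) * Complex.exp (Complex.I * ((A ω * s : ℝ) : ℂ)) ∂P = (ψ s : ℂ))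
    (s : ℝ) : |ψ s| ≤ P.real Set.univ := by
  rw [← Real.norm_eq_abs, ← Complex.norm_real, ← hψ s]
  refine (norm_integral_le_of_norm_le_const (C := 1) ?_).trans (by rw [one_mul])
  filter_upwards with ω
  rw [norm_mul, norm_cexp_I, mul_one, Complex.norm_real]
  exact hw ω

lemma psi_measurable (P : Measure Ω) [IsFiniteMeasure P] (w A : Ω → ℝ) (hwm : Measurable w)
    (hA : Measurable A) (ψ : ℝ → ℝ)
    (hψ : ∀ s : ℝ, ∫ ω, (w ω : ℂ) * Complex.exp (Complex.I * ((A ω * s : ℝ) : ℂ)) ∂P = (ψ s : ℂ)) :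
    Measurable ψ := by
  have h1 : Measurable (fun s : ℝ => (ψ s : ℂ)) := by
    simp_rw [← hψ]
    have hm : Measurable (fun p : ℝ × Ω => (w p.2 : ℂ) *
        Complex.exp (Complex.I * ((A p.2 * p.1 : ℝ) : ℂ))) := by fun_prop
    exact (hm.stronglyMeasurable.integral_prod_right).measurable
  have h2 : ψ = fun s => ((ψ s : ℂ)).re := by ext s; simp
  rw [h2]
  exact Complex.measurable_re.comp h1

lemma tav_bound {ψ : ℝ → ℝ} {r : ℝ} (hr : ∀ s, |ψ s| ≤ r) (q : X → ℝ) (hq : ∀ x, 0 ≤ q x)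
    (hq1 : ∑ x, q x = 1) (y : X → ι → ℝ) (g : ι → ℝ) : |tav ψ q y g| ≤ r := by
  unfold tav
  calc |∑ x, q x * ψ (∑ i, y x i * g i)| ≤ ∑ x, |q x * ψ (∑ i, y x i * g i)| :=
        Finset.abs_sum_le_sum_abs _ _
    _ ≤ ∑ x, q x * r := by
        apply Finset.sum_le_sum
        intro x _
        rw [abs_mul, abs_of_nonneg (hq x)]
        exact mul_le_mul_of_nonneg_left (hr _) (hq x)
    _ = r := by rw [← Finset.sum_mul, hq1, one_mul]

lemma tav_measurable {ψ : ℝ → ℝ} (hψ : Measurable ψ) (q : X → ℝ) (y : X → ι → ℝ) :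
    Measurable (tav ψ q y) := by
  unfold tav
  apply Finset.measurable_sum
  intro x _
  apply Measurable.const_mul
  apply hψ.comp
  apply Finset.measurable_sum
  intro i _
  exact (measurable_pi_apply i).const_mul _

lemma tav_moment (P : Measure Ω) [IsFiniteMeasure P] (w A : Ω → ℝ) (hw : ∀ a, |w a| ≤ 1)
    (hwm : Measurable w) (hA : Measurable A) (q : X → ℝ) (y : X → ι → ℝ) (ψ : ℝ → ℝ)
    (hψ : ∀ s : ℝ, ∫ ω, (w ω : ℂ) * Complex.exp (Complex.I * ((A ω * s : ℝ) : ℂ)) ∂P = (ψ s : ℂ))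
    (k : ℕ) : ∫ g, (tav ψ q y g) ^ k ∂(gam ι) = Mom P w A q y k := by
  have h := moment P w A hw hwm hA q y k
  simp_rw [T_eq_tav P w A q y ψ hψ] at h
  have h2 : ∀ g : ι → ℝ, ((tav ψ q y g : ℝ) : ℂ) ^ k = ((tav ψ q y g ^ k : ℝ) : ℂ) := by
    intro g; push_cast; rfl
  simp_rw [h2] at h
  rw [integral_complex_ofReal] at h
  exact Complex.ofReal_injective h

/-- series expansion of the expected logarithm -/
lemma hasSum_log {ψ : ℝ → ℝ} (hψm : Measurable ψ) {r : ℝ} (hr1 : r < 1)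
    (hr : ∀ s, |ψ s| ≤ r) (q : X → ℝ) (hq : ∀ x, 0 ≤ q x)
    (hq1 : ∑ x, q x = 1) (y : X → ι → ℝ) :
    HasSum (fun n : ℕ => ∫ g, (tav ψ q y g) ^ (n + 1) / ((n : ℝ) + 1) ∂(gam ι))
      (∫ g, -Real.log (1 - tav ψ q y g) ∂(gam ι)) := by
  have hr0 : 0 ≤ r := (abs_nonneg _).trans (hr 0)
  apply hasSum_integral_of_dominated_convergence (fun n _ => r ^ (n + 1))
  · intro n
    exact (((tav_measurable hψm q y).pow_const _).div_const _).aestronglyMeasurable
  · intro n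
    filter_upwards with g
    rw [norm_div, norm_pow, Real.norm_eq_abs, Real.norm_eq_abs]
    have h1 : |tav ψ q y g| ^ (n + 1) ≤ r ^ (n + 1) :=
      pow_le_pow_left₀ (abs_nonneg _) (tav_bound hr q hq hq1 y g) _
    have h2 : (1 : ℝ) ≤ |(n : ℝ) + 1| := by
      rw [abs_of_nonneg (by positivity)]
      have : (0 : ℝ) ≤ n := Nat.cast_nonneg n
      linarith
    calc |tav ψ q y g| ^ (n + 1) / |(n : ℝ) + 1| ≤ |tav ψ q y g| ^ (n + 1) / 1 :=
          div_le_div_of_nonneg_left (by positivity) zero_lt_one h2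
      _ ≤ r ^ (n + 1) := by rw [div_one]; exact h1
  · filter_upwards with g
    exact (summable_nat_add_iff 1).2 (summable_geometric_of_lt_one hr0 hr1)
  · exact integrable_const _
  · filter_upwards with g
    have h1 : |tav ψ q y g| < 1 := (tav_bound hr q hq hq1 y g).trans_lt hr1
    exact_mod_cast Real.hasSum_pow_div_log_of_abs_lt_one h1

/-- the difference as a series of moment differences -/
lemma hasSum_diff (P : Measure Ω) [IsFiniteMeasure P] (w A : Ω → ℝ) (hw : ∀ a, |w a| ≤ 1)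
    (hwm : Measurable w) (hA : Measurable A) (hP : P.real Set.univ < 1)
    (q : X → ℝ) (hq : ∀ x, 0 ≤ q x) (hq1 : ∑ x, q x = 1) (ψ : ℝ → ℝ)
    (hψ : ∀ s : ℝ, ∫ ω, (w ω : ℂ) * Complex.exp (Complex.I * ((A ω * s : ℝ) : ℂ)) ∂P = (ψ s : ℂ))
    (y y1 y2 : X → ι → ℝ) (p1 p2 : ℝ) :
    HasSum (fun n : ℕ => (p1 * Mom P w A q y1 (n + 1) + p2 * Mom P w A q y2 (n + 1)
        - Mom P w A q y (n + 1)) / ((n : ℝ) + 1))
      (∫ g, Real.log (1 - tav ψ q y g) ∂(gam ι)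
        - p1 * ∫ g, Real.log (1 - tav ψ q y1 g) ∂(gam ι)
        - p2 * ∫ g, Real.log (1 - tav ψ q y2 g) ∂(gam ι)) := by
  have hψm := psi_measurable P w A hwm hA ψ hψ
  have hr := psi_bound P w A hw ψ hψ
  have key : ∀ z : X → ι → ℝ, HasSum (fun n : ℕ => Mom P w A q z (n + 1) / ((n : ℝ) + 1))
      (-∫ g, Real.log (1 - tav ψ q z g) ∂(gam ι)) := by
    intro z
    have h := hasSum_log hψm hP hr q hq hq1 z
    rw [integral_neg] at h
    convert h using 2 with n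
    rw [integral_div, tav_moment P w A hw hwm hA q z ψ hψ]
  have h := (((key y1).mul_left p1).add ((key y2).mul_left p2)).sub (key y)
  have e1 : (fun n : ℕ => (p1 * Mom P w A q y1 (n + 1) + p2 * Mom P w A q y2 (n + 1)
        - Mom P w A q y (n + 1)) / ((n : ℝ) + 1)) =
      (fun n : ℕ => p1 * (Mom P w A q y1 (n + 1) / ((n : ℝ) + 1))
        + p2 * (Mom P w A q y2 (n + 1) / ((n : ℝ) + 1)) - Mom P w A q y (n + 1) / ((n : ℝ) + 1)) := by
    funext n
    rw [sub_div, add_div, mul_div_assoc, mul_div_assoc]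
  rw [e1]
  have e2 : ∀ a b c : ℝ, c - p1 * a - p2 * b = p1 * -a + p2 * -b - -c := by
    intro a b c; ring
  rw [e2]
  exact h

/-- One-step comparison for nonnegative spectral weights. -/
theorem log_compare (P : Measure Ω) [IsFiniteMeasure P] (w A : Ω → ℝ) (hw : ∀ a, |w a| ≤ 1)
    (hw0 : ∀ a, 0 ≤ w a)
    (hwm : Measurable w) (hA : Measurable A) (hP : P.real Set.univ < 1)
    (q : X → ℝ) (hq : ∀ x, 0 ≤ q x) (hq1 : ∑ x, q x = 1) (ψ : ℝ → ℝ)
    (hψ : ∀ s : ℝ, ∫ ω, (w ω : ℂ) * Complex.exp (Complex.I * ((A ω * s : ℝ) : ℂ)) ∂P = (ψ s : ℂ))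
    (y1 y2 : X → ι → ℝ) (horth : ∀ x x', ∑ i, y1 x i * y2 x' i = 0)
    (p1 p2 : ℝ) (hp1 : 0 ≤ p1) (hp2 : 0 ≤ p2) (hp : p1 + p2 = 1) :
    p1 * ∫ g, Real.log (1 - tav ψ q y1 g) ∂(gam ι)
        + p2 * ∫ g, Real.log (1 - tav ψ q y2 g) ∂(gam ι)
      ≤ ∫ g, Real.log (1 - tav ψ q (fun x i => Real.sqrt p1 * y1 x i + Real.sqrt p2 * y2 x i) g)
          ∂(gam ι) := by
  have h := hasSum_diff P w A hw hwm hA hP q hq hq1 ψ hψ
    (fun x i => Real.sqrt p1 * y1 x i + Real.sqrt p2 * y2 x i) y1 y2 p1 p2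
  have h0 : ∀ n : ℕ, 0 ≤ (p1 * Mom P w A q y1 (n + 1) + p2 * Mom P w A q y2 (n + 1)
        - Mom P w A q (fun x i => Real.sqrt p1 * y1 x i + Real.sqrt p2 * y2 x i) (n + 1))
          / ((n : ℝ) + 1) := by
    intro n
    apply div_nonneg _ (by positivity)
    have := Mom_le P w A hw hw0 hwm hA q hq y1 y2 horth p1 p2 hp1 hp2 hp (n + 1)
    linarith
  have h1 := h.nonneg h0
  linarith

end Vale.H15.P157
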