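import Mathlib

open MeasureTheory ProbabilityTheory

namespace Vale.H15.P157

/-- value of a spin -/
def sgn (b : Bool) : ℝ := if b then 1 else -1

/-- the local field `g·x/√N` of the configuration `x ∈ {-1,1}^N` (coded by booleans) -/
noncomputable def fld {N : ℕ} (g : Fin N → ℝ) (x : Fin N → Bool) : ℝ :=
  (∑ i, g i * sgn (x i)) / Real.sqrt N

/-- the expected pressure `E p_N(f)` of the Ising perceptron at pattern density `α`:
`M = ⌊α N⌋` independent standard Gaussian patterns in `ℝ^N`, uniform measure on `{-1,1}^N` -/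
noncomputable def pressure (f : ℝ → ℝ) (α : ℝ) (N : ℕ) : ℝ :=
  (1 / (N : ℝ)) * ∫ G : Fin ⌊α * N⌋₊ → Fin N → ℝ,
    Real.log ((1 / 2 ^ N) * ∑ x : Fin N → Bool, Real.exp (∑ a, f (fld (G a) x)))
    ∂(Measure.pi fun _ => Measure.pi fun _ => gaussianReal 0 1)

end Vale.H15.P157
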