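import Mathlib

open MeasureTheory Finset

namespace Vale.H15.P157

variable {E X : Type*} [MeasurableSpace E] [Fintype X]

/-- iterated expected log-partition function; patterns of three kinds, listed in `l` -/
noncomputable def V (μ : Measure E) (U : Fin 3 → E → X → ℝ) : List (Fin 3) → (X → ℝ) → ℝ
  | [], w => Real.log (∑ x, w x)
  | c :: l, w => ∫ g, V μ U l (fun x => w x * Real.exp (U c g x)) ∂μ

variable (μ : Measure E) [IsProbabilityMeasure μ] (U : Fin 3 → E → X → ℝ)

lemma V_measurable (hU : ∀ c x, Measurable fun g => U c g x) (l : List (Fin 3)) :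
    Measurable (V μ U l) := by
  induction l with
  | nil =>
    show Measurable (fun w : X → ℝ => Real.log (∑ x, w x))
    apply Real.measurable_log.comp
    apply Finset.measurable_sum
    intro x _
    exact measurable_pi_apply x
  | cons c l ih =>
    show Measurable (fun w : X → ℝ => ∫ g, V μ U l (fun x => w x * Real.exp (U c g x)) ∂μ)
    have hm : Measurable (fun p : (X → ℝ) × E => V μ U l (fun x => p.1 x * Real.exp (U c p.2 x))) := by
      apply ih.comp
      apply measurable_pi_lambda
      intro x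
      apply Measurable.mul
      · exact (measurable_pi_apply x).comp measurable_fst
      · exact ((hU c x).comp measurable_snd).exp
    exact (hm.stronglyMeasurable.integral_prod_right).measurable

lemma log_sum_bound [Nonempty X] {B : ℝ} (w u : X → ℝ) (hw : ∀ x, 0 < w x) (hu : ∀ x, |u x| ≤ B) :
    |Real.log (∑ x, w x * Real.exp (u x)) - Real.log (∑ x, w x)| ≤ B := by
  have hS : 0 < ∑ x, w x := Finset.sum_pos (fun x _ => hw x) Finset.univ_nonempty
  have h1 : ∑ x, w x * Real.exp (u x) ≤ (∑ x, w x) * Real.exp B := by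
    rw [Finset.sum_mul]
    apply Finset.sum_le_sum
    intro x _
    exact mul_le_mul_of_nonneg_left (Real.exp_le_exp.2 ((abs_le.1 (hu x)).2)) (hw x).le
  have h2 : (∑ x, w x) * Real.exp (-B) ≤ ∑ x, w x * Real.exp (u x) := by
    rw [Finset.sum_mul]
    apply Finset.sum_le_sum
    intro x _
    exact mul_le_mul_of_nonneg_left (Real.exp_le_exp.2 ((abs_le.1 (hu x)).1)) (hw x).le
  have hS' : 0 < ∑ x, w x * Real.exp (u x) :=
    Finset.sum_pos (fun x _ => mul_pos (hw x) (Real.exp_pos _)) Finset.univ_nonempty
  have h3 := Real.log_le_log hS' h1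
  have h4 := Real.log_le_log (mul_pos hS (Real.exp_pos _)) h2
  rw [Real.log_mul hS.ne' (Real.exp_pos _).ne', Real.log_exp] at h3 h4
  rw [abs_le]
  constructor <;> linarith

lemma V_bound_aux [Nonempty X] {B : ℝ} (hU : ∀ c x, Measurable fun g => U c g x)
    (hB : ∀ c g x, |U c g x| ≤ B) (l : List (Fin 3)) :
    ∀ w : X → ℝ, (∀ x, 0 < w x) → |V μ U l w - Real.log (∑ x, w x)| ≤ l.length * B := by
  induction l with
  | nil =>
    intro w hw
    simp [V]
  | cons c l ih =>
    intro w hw
    have hpos : ∀ g x, 0 < w x * Real.exp (U c g x) := fun g x => mul_pos (hw x) (Real.exp_pos _)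
    have hb : ∀ g, |V μ U l (fun x => w x * Real.exp (U c g x)) - Real.log (∑ x, w x)|
        ≤ ((l.length : ℝ) + 1) * B := by
      intro g
      have h1 := ih (fun x => w x * Real.exp (U c g x)) (hpos g)
      have h2 := log_sum_bound w (U c g) hw (fun x => hB c g x)
      calc _ = |(V μ U l (fun x => w x * Real.exp (U c g x))
              - Real.log (∑ x, w x * Real.exp (U c g x)))
              + (Real.log (∑ x, w x * Real.exp (U c g x)) - Real.log (∑ x, w x))| := by
            congr 1; ring
        _ ≤ _ := abs_add_le _ _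
        _ ≤ l.length * B + B := add_le_add h1 h2
        _ = _ := by ring
    have hm : Measurable (fun g => V μ U l (fun x => w x * Real.exp (U c g x))) := by
      apply (V_measurable μ U hU l).comp
      apply measurable_pi_lambda
      intro x
      exact ((hU c x).exp).const_mul _
    have hint : Integrable (fun g => V μ U l (fun x => w x * Real.exp (U c g x))) μ := by
      refine Integrable.of_bound (C := ((l.length : ℝ) + 1) * B + |Real.log (∑ x, w x)|)
        hm.aestronglyMeasurable ?_
      filter_upwards with g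
      rw [Real.norm_eq_abs]
      calc |V μ U l (fun x => w x * Real.exp (U c g x))|
          = |(V μ U l (fun x => w x * Real.exp (U c g x)) - Real.log (∑ x, w x))
            + Real.log (∑ x, w x)| := by congr 1; ring
        _ ≤ _ := abs_add_le _ _
        _ ≤ _ := add_le_add (hb g) le_rfl
    have e : V μ U (c :: l) w - Real.log (∑ x, w x)
        = ∫ g, (V μ U l (fun x => w x * Real.exp (U c g x)) - Real.log (∑ x, w x)) ∂μ := by
      rw [integral_sub hint (integrable_const _), integral_const]
      simp [V]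
    rw [e, List.length_cons]
    push_cast
    calc _ ≤ ∫ g, |V μ U l (fun x => w x * Real.exp (U c g x)) - Real.log (∑ x, w x)| ∂μ :=
          abs_integral_le_integral_abs
      _ ≤ ∫ g, ((l.length : ℝ) + 1) * B ∂μ := by
          apply integral_mono_of_nonneg
          · filter_upwards with g; exact abs_nonneg _
          · exact integrable_const _
          · filter_upwards with g; exact hb g
      _ = _ := by simp

lemma V_abs_le [Nonempty X] {B : ℝ} (hB0 : 0 ≤ B) (hU : ∀ c x, Measurable fun g => U c g x)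
    (hB : ∀ c g x, |U c g x| ≤ B) (l : List (Fin 3)) (c : Fin 3) (w : X → ℝ) (hw : ∀ x, 0 < w x)
    (g : E) :
    |V μ U l (fun x => w x * Real.exp (U c g x))|
      ≤ ((l.length : ℝ) + 1) * B + |Real.log (∑ x, w x)| := by
  have h1 := V_bound_aux μ U hU hB l (fun x => w x * Real.exp (U c g x))
    (fun x => mul_pos (hw x) (Real.exp_pos _))
  have h2 := log_sum_bound w (U c g) hw (fun x => hB c g x)
  have e : V μ U l (fun x => w x * Real.exp (U c g x))
      = (V μ U l (fun x => w x * Real.exp (U c g x)) - Real.log (∑ x, w x * Real.exp (U c g x)))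
      + (Real.log (∑ x, w x * Real.exp (U c g x)) - Real.log (∑ x, w x))
      + Real.log (∑ x, w x) := by ring
  rw [e]
  refine (abs_add_le _ _).trans ?_
  refine add_le_add ((abs_add_le _ _).trans ?_) le_rfl
  linarith

lemma V_integrable [Nonempty X] {B : ℝ} (hB0 : 0 ≤ B) (hU : ∀ c x, Measurable fun g => U c g x)
    (hB : ∀ c g x, |U c g x| ≤ B) (l : List (Fin 3)) (c : Fin 3) (w : X → ℝ) (hw : ∀ x, 0 < w x) :
    Integrable (fun g => V μ U l (fun x => w x * Real.exp (U c g x))) μ := by
  have hm : Measurable (fun g => V μ U l (fun x => w x * Real.exp (U c g x))) := by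
    apply (V_measurable μ U hU l).comp
    apply measurable_pi_lambda
    intro x
    exact ((hU c x).exp).const_mul _
  refine Integrable.of_bound (C := ((l.length : ℝ) + 1) * B + |Real.log (∑ x, w x)|)
    hm.aestronglyMeasurable ?_
  filter_upwards with g
  rw [Real.norm_eq_abs]
  exact V_abs_le μ U hB0 hU hB l c w hw g

/-- the comparison at the innermost pattern propagates to the full system -/
lemma V_last [Nonempty X] {B : ℝ} (hB0 : 0 ≤ B) (hU : ∀ c x, Measurable fun g => U c g x)
    (hB : ∀ c g x, |U c g x| ≤ B) (p1 p2 : ℝ)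
    (h1 : ∀ w : X → ℝ, (∀ x, 0 < w x) → p1 * V μ U [1] w + p2 * V μ U [2] w ≤ V μ U [0] w)
    (l : List (Fin 3)) :
    ∀ w : X → ℝ, (∀ x, 0 < w x) →
      p1 * V μ U (l ++ [1]) w + p2 * V μ U (l ++ [2]) w ≤ V μ U (l ++ [0]) w := by
  induction l with
  | nil => exact h1
  | cons c l ih =>
    intro w hw
    simp only [List.cons_append]
    show p1 * (∫ g, V μ U (l ++ [1]) (fun x => w x * Real.exp (U c g x)) ∂μ)
      + p2 * (∫ g, V μ U (l ++ [2]) (fun x => w x * Real.exp (U c g x)) ∂μ)
      ≤ ∫ g, V μ U (l ++ [0]) (fun x => w x * Real.exp (U c g x)) ∂μ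
    rw [← integral_const_mul, ← integral_const_mul, ← integral_add]
    · apply integral_mono
      · exact ((V_integrable μ U hB0 hU hB _ c w hw).const_mul p1).add
          ((V_integrable μ U hB0 hU hB _ c w hw).const_mul p2)
      · exact V_integrable μ U hB0 hU hB _ c w hw
      · intro g
        exact ih _ (fun x => mul_pos (hw x) (Real.exp_pos _))
    · exact (V_integrable μ U hB0 hU hB _ c w hw).const_mul p1
    · exact (V_integrable μ U hB0 hU hB _ c w hw).const_mul p2

lemma V_swap [Nonempty X] {B : ℝ} (hB0 : 0 ≤ B) (hU : ∀ c x, Measurable fun g => U c g x)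
    (hB : ∀ c g x, |U c g x| ≤ B) (a b : Fin 3) (l : List (Fin 3)) (w : X → ℝ)
    (hw : ∀ x, 0 < w x) : V μ U (a :: b :: l) w = V μ U (b :: a :: l) w := by
  show ∫ g, ∫ g', V μ U l (fun x => w x * Real.exp (U a g x) * Real.exp (U b g' x)) ∂μ ∂μ
    = ∫ g, ∫ g', V μ U l (fun x => w x * Real.exp (U b g x) * Real.exp (U a g' x)) ∂μ ∂μ
  rw [integral_integral_swap]
  · apply integral_congr_ae
    filter_upwards with g
    apply integral_congr_ae
    filter_upwards with g'
    congr 1
    ext x
    ring
  · have hm : Measurable (fun p : E × E =>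
        V μ U l (fun x => w x * Real.exp (U a p.1 x) * Real.exp (U b p.2 x))) := by
      apply (V_measurable μ U hU l).comp
      apply measurable_pi_lambda
      intro x
      exact ((((hU a x).comp measurable_fst).exp).const_mul _).mul
        (((hU b x).comp measurable_snd).exp)
    refine Integrable.of_bound (C := ((l.length : ℝ) + 1) * B + (B + |Real.log (∑ x, w x)|))
      hm.aestronglyMeasurable ?_
    filter_upwards with p
    show ‖V μ U l (fun x => w x * Real.exp (U a p.1 x) * Real.exp (U b p.2 x))‖ ≤ _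
    rw [Real.norm_eq_abs]
    refine (V_abs_le μ U hB0 hU hB l b (fun x => w x * Real.exp (U a p.1 x))
      (fun x => mul_pos (hw x) (Real.exp_pos _)) p.2).trans ?_
    have h2 := log_sum_bound w (U a p.1) hw (fun x => hB a p.1 x)
    have h3 : |Real.log (∑ x, w x * Real.exp (U a p.1 x))| ≤ B + |Real.log (∑ x, w x)| := by
      calc |Real.log (∑ x, w x * Real.exp (U a p.1 x))|
          = |(Real.log (∑ x, w x * Real.exp (U a p.1 x)) - Real.log (∑ x, w x))
            + Real.log (∑ x, w x)| := by congr 1; ring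
        _ ≤ _ := abs_add_le _ _
        _ ≤ _ := add_le_add h2 le_rfl
    linarith

lemma V_perm [Nonempty X] {B : ℝ} (hB0 : 0 ≤ B) (hU : ∀ c x, Measurable fun g => U c g x)
    (hB : ∀ c g x, |U c g x| ≤ B) {l l' : List (Fin 3)} (h : l.Perm l') :
    ∀ w : X → ℝ, (∀ x, 0 < w x) → V μ U l w = V μ U l' w := by
  induction h with
  | nil => intro w _; rfl
  | cons c _ ih =>
    intro w hw
    show ∫ g, V μ U _ (fun x => w x * Real.exp (U c g x)) ∂μ
      = ∫ g, V μ U _ (fun x => w x * Real.exp (U c g x)) ∂μ
    apply integral_congr_ae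
    filter_upwards with g
    exact ih _ (fun x => mul_pos (hw x) (Real.exp_pos _))
  | swap a b l =>
    intro w hw
    exact V_swap μ U hB0 hU hB b a l w hw
  | trans _ _ ih1 ih2 =>
    intro w hw
    exact (ih1 w hw).trans (ih2 w hw)

/-- word with given counts -/
def word (m0 m1 m2 : ℕ) : List (Fin 3) :=
  List.replicate m1 1 ++ List.replicate m2 2 ++ List.replicate m0 0

lemma word_step0 (m0 m1 m2 : ℕ) : (word (m0 + 1) m1 m2).Perm (word m0 m1 m2 ++ [0]) := by
  unfold word
  rw [List.replicate_succ', List.append_assoc, List.append_assoc, List.append_assoc]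

lemma word_step1 (m0 m1 m2 : ℕ) : (word m0 m1 m2 ++ [1]).Perm (word m0 (m1 + 1) m2) := by
  unfold word
  rw [List.perm_iff_count]
  intro a
  simp only [List.count_append, List.count_replicate, List.count_cons, List.count_nil]
  fin_cases a <;> simp

lemma word_step2 (m0 m1 m2 : ℕ) : (word m0 m1 m2 ++ [2]).Perm (word m0 m1 (m2 + 1)) := by
  unfold word
  rw [List.perm_iff_count]
  intro a
  simp only [List.count_append, List.count_replicate, List.count_cons, List.count_nil]
  fin_cases a <;> simp

/-- Random assignment of patterns, with a quadratic potential absorbing the binomial fluctuation. -/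
theorem V_interp [Nonempty X] {B : ℝ} (hB0 : 0 ≤ B) (hU : ∀ c x, Measurable fun g => U c g x)
    (hB : ∀ c g x, |U c g x| ≤ B) (p1 p2 : ℝ) (hp1 : 0 ≤ p1) (hp2 : 0 ≤ p2) (hp : p1 + p2 = 1)
    (h1 : ∀ w : X → ℝ, (∀ x, 0 < w x) → p1 * V μ U [1] w + p2 * V μ U [2] w ≤ V μ U [0] w)
    (w : X → ℝ) (hw : ∀ x, 0 < w x) (M : ℕ) (A K lam : ℝ) (hlam : 0 < lam) (hK : 0 ≤ K)
    (hbase : ∀ m1 m2 : ℕ, m1 + m2 = M →
      A - K * |(m1 : ℝ) - p1 * M| ≤ V μ U (word 0 m1 m2) w) :
    ∀ m0 m1 m2 : ℕ, m0 + m1 + m2 = M →
      A - K / 2 * (lam + (((m1 : ℝ) - p1 * (m1 + m2)) ^ 2 + m0 * (p1 * p2)) / lam)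
        ≤ V μ U (word m0 m1 m2) w := by
  intro m0
  induction m0 with
  | zero =>
    intro m1 m2 hM
    have hM' : m1 + m2 = M := by omega
    refine le_trans ?_ (hbase m1 m2 hM')
    have hMr : (M : ℝ) = m1 + m2 := by rw [← hM']; push_cast; ring
    rw [hMr]
    set u : ℝ := (m1 : ℝ) - p1 * (m1 + m2) with hu
    have h2 : |u| ≤ (lam + u ^ 2 / lam) / 2 := by
      have h3 : 0 ≤ (|u| - lam) ^ 2 / lam := by positivity
      have h4 : (|u| - lam) ^ 2 / lam = u ^ 2 / lam - 2 * |u| + lam := by
        have : (|u| - lam) ^ 2 = u ^ 2 - 2 * |u| * lam + lam ^ 2 := by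
          rw [sub_sq, sq_abs]
        rw [this]
        field_simp
      rw [h4] at h3
      linarith
    have h5 := mul_le_mul_of_nonneg_left h2 hK
    have e : ((0 : ℕ) : ℝ) * (p1 * p2) = 0 := by simp
    rw [e, add_zero]
    linarith
  | succ m0 ih =>
    intro m1 m2 hM
    have hs := V_last μ U hB0 hU hB p1 p2 h1 (word m0 m1 m2) w hw
    rw [V_perm μ U hB0 hU hB (word_step1 m0 m1 m2) w hw,
      V_perm μ U hB0 hU hB (word_step2 m0 m1 m2) w hw,
      ← V_perm μ U hB0 hU hB (word_step0 m0 m1 m2) w hw] at hs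
    have i1 := ih (m1 + 1) m2 (by omega)
    have i2 := ih m1 (m2 + 1) (by omega)
    have j1 := mul_le_mul_of_nonneg_left i1 hp1
    have j2 := mul_le_mul_of_nonneg_left i2 hp2
    refine le_trans ?_ (le_trans (add_le_add j1 j2) hs)
    push_cast
    have hp2' : p2 = 1 - p1 := by linarith
    subst hp2'
    apply le_of_eq
    field_simp
    ring

end Vale.H15.P157
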