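import Mathlib
import Vale.Agent.H15.P157.Moments
import Vale.Agent.H15.P157.Interp
import Vale.Agent.H15.P157.Defs

open MeasureTheory ProbabilityTheory Finset Filter Topology

namespace Vale.H15.P157

/-- expected log partition function with `m` patterns and weights `w` -/
noncomputable def W (f : ℝ → ℝ) (N m : ℕ) (w : (Fin N → Bool) → ℝ) : ℝ :=
  V (gam (Fin N)) (fun _ g x => f (fld g x)) (List.replicate m 0) w

section ident

variable {E X : Type*} [MeasurableSpace E] [Fintype X]

lemma V_lip [Nonempty X] (μ : Measure E) [IsProbabilityMeasure μ] (U : Fin 3 → E → X → ℝ)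
    {B : ℝ} (hB0 : 0 ≤ B) (hU : ∀ c x, Measurable fun g => U c g x)
    (hB : ∀ c g x, |U c g x| ≤ B) (u : X → ℝ) (hu : ∀ x, |u x| ≤ B) (l : List (Fin 3)) :
    ∀ w : X → ℝ, (∀ x, 0 < w x) →
      |V μ U l (fun x => w x * Real.exp (u x)) - V μ U l w| ≤ B := by
  induction l with
  | nil =>
    intro w hw
    exact log_sum_bound w u hw hu
  | cons c l ih =>
    intro w hw
    show |(∫ g, V μ U l (fun x => w x * Real.exp (u x) * Real.exp (U c g x)) ∂μ)
      - ∫ g, V μ U l (fun x => w x * Real.exp (U c g x)) ∂μ| ≤ B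
    have hw' : ∀ x, 0 < w x * Real.exp (u x) := fun x => mul_pos (hw x) (Real.exp_pos _)
    rw [← integral_sub (V_integrable μ U hB0 hU hB l c (fun x => w x * Real.exp (u x)) hw')
      (V_integrable μ U hB0 hU hB l c w hw)]
    have hb : ∀ g, |V μ U l (fun x => w x * Real.exp (u x) * Real.exp (U c g x))
        - V μ U l (fun x => w x * Real.exp (U c g x))| ≤ B := by
      intro g
      have := ih (fun x => w x * Real.exp (U c g x)) (fun x => mul_pos (hw x) (Real.exp_pos _))
      have e : (fun x => w x * Real.exp (u x) * Real.exp (U c g x))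
          = (fun x => w x * Real.exp (U c g x) * Real.exp (u x)) := by
        ext x; ring
      rw [e]
      exact this
    calc _ ≤ ∫ g, |V μ U l (fun x => w x * Real.exp (u x) * Real.exp (U c g x))
          - V μ U l (fun x => w x * Real.exp (U c g x))| ∂μ := abs_integral_le_integral_abs
      _ ≤ ∫ g, B ∂μ := by
          apply integral_mono_of_nonneg
          · filter_upwards with g; exact abs_nonneg _
          · exact integrable_const _
          · filter_upwards with g; exact hb g
      _ = B := by simp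

lemma ident [Nonempty X] (μ : Measure E) [IsProbabilityMeasure μ] (U : E → X → ℝ)
    {B : ℝ} (hU : ∀ x, Measurable fun g => U g x)
    (hB : ∀ g x, |U g x| ≤ B) (m : ℕ) :
    ∀ w : X → ℝ, (∀ x, 0 < w x) →
      ∫ G : Fin m → E, Real.log (∑ x, w x * Real.exp (∑ a, U (G a) x)) ∂(Measure.pi fun _ => μ)
        = V μ (fun _ => U) (List.replicate m 0) w := by
  induction m with
  | zero =>
    intro w hw
    simp [V]
  | succ m ih =>
    intro w hw
    rw [← ((measurePreserving_piFinSuccAbove (fun _ : Fin (m + 1) => μ) 0).symm).integral_comp']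
    have e1 : ∀ p : E × (Fin m → E), Real.log (∑ x, w x * Real.exp (∑ a, U
        (((MeasurableEquiv.piFinSuccAbove (fun _ : Fin (m + 1) => E) 0).symm p) a) x))
        = Real.log (∑ x, (w x * Real.exp (U p.1 x)) * Real.exp (∑ a, U (p.2 a) x)) := by
      intro p
      congr 1
      apply Finset.sum_congr rfl
      intro x _
      rw [mul_assoc, ← Real.exp_add, Fin.sum_univ_succ]
      simp [MeasurableEquiv.piFinSuccAbove_symm_apply, Fin.insertNthEquiv]
    simp_rw [e1]
    have hm : Measurable (fun p : E × (Fin m → E) =>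
        Real.log (∑ x, (w x * Real.exp (U p.1 x)) * Real.exp (∑ a, U (p.2 a) x))) := by
      apply Real.measurable_log.comp
      apply Finset.measurable_sum
      intro x _
      apply Measurable.mul
      · exact (((hU x).comp measurable_fst).exp).const_mul _
      · apply Measurable.exp
        apply Finset.measurable_sum
        intro a _
        exact (hU x).comp ((measurable_pi_apply a).comp measurable_snd)
    have hint : Integrable (fun p : E × (Fin m → E) =>
        Real.log (∑ x, (w x * Real.exp (U p.1 x)) * Real.exp (∑ a, U (p.2 a) x)))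
        (μ.prod (Measure.pi fun _ => μ)) := by
      refine Integrable.of_bound (C := ((m : ℝ) + 1) * B + |Real.log (∑ x, w x)|)
        hm.aestronglyMeasurable ?_
      filter_upwards with p
      rw [Real.norm_eq_abs]
      have h2 : ∀ x, |U p.1 x + ∑ a, U (p.2 a) x| ≤ ((m : ℝ) + 1) * B := by
        intro x
        calc |U p.1 x + ∑ a, U (p.2 a) x| ≤ |U p.1 x| + |∑ a, U (p.2 a) x| := abs_add_le _ _
          _ ≤ B + ∑ a : Fin m, |U (p.2 a) x| := add_le_add (hB _ _) (Finset.abs_sum_le_sum_abs _ _)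
          _ ≤ B + ∑ a : Fin m, B := by
              gcongr with a _
              exact hB _ _
          _ = _ := by simp; ring
      have h3 := log_sum_bound w (fun x => U p.1 x + ∑ a, U (p.2 a) x) hw h2
      have e2 : ∑ x, (w x * Real.exp (U p.1 x)) * Real.exp (∑ a, U (p.2 a) x)
          = ∑ x, w x * Real.exp (U p.1 x + ∑ a, U (p.2 a) x) := by
        apply Finset.sum_congr rfl
        intro x _
        rw [Real.exp_add, mul_assoc]
      rw [e2]
      calc |Real.log (∑ x, w x * Real.exp (U p.1 x + ∑ a, U (p.2 a) x))|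
          = |(Real.log (∑ x, w x * Real.exp (U p.1 x + ∑ a, U (p.2 a) x)) - Real.log (∑ x, w x))
            + Real.log (∑ x, w x)| := by congr 1; ring
        _ ≤ _ := abs_add_le _ _
        _ ≤ _ := add_le_add h3 le_rfl
    rw [integral_prod _ hint]
    show _ = ∫ g, V μ (fun _ => U) (List.replicate m 0) (fun x => w x * Real.exp (U g x)) ∂μ
    apply integral_congr_ae
    filter_upwards with g
    exact ih (fun x => w x * Real.exp (U g x)) (fun x => mul_pos (hw x) (Real.exp_pos _))

end ident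

lemma fld_measurable {N : ℕ} (x : Fin N → Bool) : Measurable (fun g : Fin N → ℝ => fld g x) := by
  unfold fld
  apply Measurable.div_const
  apply Finset.measurable_sum
  intro i _
  exact (measurable_pi_apply i).mul_const _

/-- the first block of coordinates -/
def blk1 {N1 N2 : ℕ} {α : Type*} (g : Fin (N1 + N2) → α) : Fin N1 → α := fun i => g (Fin.castAdd N2 i)
def blk2 {N1 N2 : ℕ} {α : Type*} (g : Fin (N1 + N2) → α) : Fin N2 → α := fun i => g (Fin.natAdd N1 i)

lemma mp_blk1 (N1 N2 : ℕ) :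
    MeasurePreserving (blk1 : (Fin (N1 + N2) → ℝ) → (Fin N1 → ℝ)) (gam _) (gam _) := by
  have hm : Measurable (blk1 : (Fin (N1 + N2) → ℝ) → (Fin N1 → ℝ)) := by
    apply measurable_pi_lambda
    intro i
    exact measurable_pi_apply _
  refine ⟨hm, ?_⟩
  symm
  apply Measure.pi_eq
  intro s hs
  rw [Measure.map_apply hm (MeasurableSet.univ_pi hs)]
  have e : (blk1 : (Fin (N1 + N2) → ℝ) → (Fin N1 → ℝ)) ⁻¹' (Set.pi Set.univ s)
      = Set.pi Set.univ (Fin.addCases (motive := fun _ => Set ℝ) s (fun _ : Fin N2 => Set.univ)) := by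
    ext g
    simp only [Set.mem_preimage, Set.mem_pi, Set.mem_univ, true_implies]
    constructor
    · intro h i
      refine Fin.addCases (fun i => ?_) (fun i => ?_) i
      · rw [Fin.addCases_left]; exact h i
      · rw [Fin.addCases_right]; exact Set.mem_univ _
    · intro h i
      have := h (Fin.castAdd N2 i)
      rw [Fin.addCases_left] at this
      exact this
  rw [e, Measure.pi_pi, Fin.prod_univ_add]
  simp [Fin.addCases_left, Fin.addCases_right]

lemma mp_blk2 (N1 N2 : ℕ) :
    MeasurePreserving (blk2 : (Fin (N1 + N2) → ℝ) → (Fin N2 → ℝ)) (gam _) (gam _) := by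
  have hm : Measurable (blk2 : (Fin (N1 + N2) → ℝ) → (Fin N2 → ℝ)) := by
    apply measurable_pi_lambda
    intro i
    exact measurable_pi_apply _
  refine ⟨hm, ?_⟩
  symm
  apply Measure.pi_eq
  intro s hs
  rw [Measure.map_apply hm (MeasurableSet.univ_pi hs)]
  have e : (blk2 : (Fin (N1 + N2) → ℝ) → (Fin N2 → ℝ)) ⁻¹' (Set.pi Set.univ s)
      = Set.pi Set.univ (Fin.addCases (motive := fun _ => Set ℝ) (fun _ : Fin N1 => Set.univ) s) := by
    ext g
    simp only [Set.mem_preimage, Set.mem_pi, Set.mem_univ, true_implies]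
    constructor
    · intro h i
      refine Fin.addCases (fun i => ?_) (fun i => ?_) i
      · rw [Fin.addCases_left]; exact Set.mem_univ _
      · rw [Fin.addCases_right]; exact h i
    · intro h i
      have := h (Fin.natAdd N1 i)
      rw [Fin.addCases_right] at this
      exact this
  rw [e, Measure.pi_pi, Fin.prod_univ_add]
  simp [Fin.addCases_left, Fin.addCases_right]

/-- the three kinds of potentials on the block system -/
noncomputable def UB (f : ℝ → ℝ) (N1 N2 : ℕ) : Fin 3 → (Fin (N1 + N2) → ℝ) → (Fin (N1 + N2) → Bool) → ℝ :=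
  ![fun g x => f (fld g x), fun g x => f (fld (blk1 g) (blk1 x)), fun g x => f (fld (blk2 g) (blk2 x))]

lemma UB_meas {f : ℝ → ℝ} (hf : Measurable f) (N1 N2 : ℕ) (c : Fin 3) (x : Fin (N1 + N2) → Bool) :
    Measurable fun g => UB f N1 N2 c g x := by
  fin_cases c
  · exact hf.comp (fld_measurable x)
  · exact hf.comp ((fld_measurable (blk1 x)).comp (mp_blk1 N1 N2).measurable)
  · exact hf.comp ((fld_measurable (blk2 x)).comp (mp_blk2 N1 N2).measurable)

lemma UB_bound {f : ℝ → ℝ} {B : ℝ} (hB : ∀ s, |f s| ≤ B) (N1 N2 : ℕ) (c : Fin 3)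
    (g : Fin (N1 + N2) → ℝ) (x : Fin (N1 + N2) → Bool) : |UB f N1 N2 c g x| ≤ B := by
  fin_cases c <;> exact hB _

lemma sum_blocks (N1 N2 : ℕ) (w1 : (Fin N1 → Bool) → ℝ) (w2 : (Fin N2 → Bool) → ℝ) :
    ∑ x : Fin (N1 + N2) → Bool, w1 (blk1 x) * w2 (blk2 x) = (∑ x, w1 x) * ∑ x, w2 x := by
  rw [Finset.sum_mul_sum, ← Finset.sum_product']
  apply Fintype.sum_equiv (Fin.appendEquiv N1 N2).symm
  intro x
  rfl

lemma V_W_mono {f : ℝ → ℝ} (N m : ℕ) (w : (Fin N → Bool) → ℝ) :
    W f N (m + 1) w = ∫ g, W f N m (fun x => w x * Real.exp (f (fld g x))) ∂(gam (Fin N)) := rfl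

/-- factorisation of the decoupled system -/
lemma V_blocks2 {f : ℝ → ℝ} (hf : Measurable f) {B : ℝ} (hB0 : 0 ≤ B) (hB : ∀ s, |f s| ≤ B)
    (N1 N2 : ℕ) (w1 : (Fin N1 → Bool) → ℝ) (hw1 : ∀ x, 0 < w1 x) (m2 : ℕ) :
    ∀ (w2 : (Fin N2 → Bool) → ℝ), (∀ x, 0 < w2 x) →
    V (gam (Fin (N1 + N2))) (UB f N1 N2) (List.replicate m2 2) (fun x => w1 (blk1 x) * w2 (blk2 x))
      = W f N1 0 w1 + W f N2 m2 w2 := by
  induction m2 with
  | zero =>
    intro w2 hw2
    show Real.log (∑ x : Fin (N1 + N2) → Bool, w1 (blk1 x) * w2 (blk2 x))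
      = Real.log (∑ x, w1 x) + Real.log (∑ x, w2 x)
    rw [sum_blocks, Real.log_mul]
    · exact (Finset.sum_pos (fun x _ => hw1 x) Finset.univ_nonempty).ne'
    · exact (Finset.sum_pos (fun x _ => hw2 x) Finset.univ_nonempty).ne'
  | succ m2 ih =>
    intro w2 hw2
    show ∫ g, V (gam (Fin (N1 + N2))) (UB f N1 N2) (List.replicate m2 2)
      (fun x => w1 (blk1 x) * w2 (blk2 x) * Real.exp (f (fld (blk2 g) (blk2 x)))) ∂(gam _) = _
    have e : ∀ g : Fin (N1 + N2) → ℝ, V (gam (Fin (N1 + N2))) (UB f N1 N2) (List.replicate m2 2)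
        (fun x => w1 (blk1 x) * w2 (blk2 x) * Real.exp (f (fld (blk2 g) (blk2 x))))
        = W f N1 0 w1 + W f N2 m2 (fun x => w2 x * Real.exp (f (fld (blk2 g) x))) := by
      intro g
      rw [← ih (fun x => w2 x * Real.exp (f (fld (blk2 g) x)))
        (fun x => mul_pos (hw2 x) (Real.exp_pos _))]
      congr 1
      ext x
      ring
    simp_rw [e]
    have hmint : Integrable (fun g : Fin N2 → ℝ => W f N2 m2 (fun x => w2 x * Real.exp (f (fld g x))))
        (gam (Fin N2)) :=
      V_integrable (gam (Fin N2)) (fun _ g x => f (fld g x)) hB0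
        (fun _ x => hf.comp (fld_measurable x)) (fun _ _ _ => hB _) (List.replicate m2 0) 0 w2 hw2
    have hcomp : Integrable (fun g : Fin (N1 + N2) → ℝ =>
        W f N2 m2 (fun x => w2 x * Real.exp (f (fld (blk2 g) x)))) (gam (Fin (N1 + N2))) :=
      (mp_blk2 N1 N2).integrable_comp_of_integrable hmint
    rw [integral_add (integrable_const _) hcomp]
    rw [integral_const]
    have e3 : ∫ g : Fin (N1 + N2) → ℝ, W f N2 m2 (fun x => w2 x * Real.exp (f (fld (blk2 g) x)))
        ∂(gam (Fin (N1 + N2)))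
        = ∫ g : Fin N2 → ℝ, W f N2 m2 (fun x => w2 x * Real.exp (f (fld g x))) ∂(gam (Fin N2)) := by
      have h := (mp_blk2 N1 N2).map_eq
      conv_rhs => rw [← h]
      rw [integral_map (mp_blk2 N1 N2).measurable.aemeasurable]
      rw [h]
      exact hmint.aestronglyMeasurable
    rw [e3, V_W_mono]
    simp

lemma V_blocks {f : ℝ → ℝ} (hf : Measurable f) {B : ℝ} (hB0 : 0 ≤ B) (hB : ∀ s, |f s| ≤ B)
    (N1 N2 : ℕ) (m2 : ℕ) (w2 : (Fin N2 → Bool) → ℝ) (hw2 : ∀ x, 0 < w2 x) (m1 : ℕ) :
    ∀ (w1 : (Fin N1 → Bool) → ℝ), (∀ x, 0 < w1 x) →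
    V (gam (Fin (N1 + N2))) (UB f N1 N2) (List.replicate m1 1 ++ List.replicate m2 2)
      (fun x => w1 (blk1 x) * w2 (blk2 x))
      = W f N1 m1 w1 + W f N2 m2 w2 := by
  induction m1 with
  | zero =>
    intro w1 hw1
    exact V_blocks2 hf hB0 hB N1 N2 w1 hw1 m2 w2 hw2
  | succ m1 ih =>
    intro w1 hw1
    show ∫ g, V (gam (Fin (N1 + N2))) (UB f N1 N2) (List.replicate m1 1 ++ List.replicate m2 2)
      (fun x => w1 (blk1 x) * w2 (blk2 x) * Real.exp (f (fld (blk1 g) (blk1 x)))) ∂(gam _) = _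
    have e : ∀ g : Fin (N1 + N2) → ℝ, V (gam (Fin (N1 + N2))) (UB f N1 N2)
        (List.replicate m1 1 ++ List.replicate m2 2)
        (fun x => w1 (blk1 x) * w2 (blk2 x) * Real.exp (f (fld (blk1 g) (blk1 x))))
        = W f N1 m1 (fun x => w1 x * Real.exp (f (fld (blk1 g) x))) + W f N2 m2 w2 := by
      intro g
      rw [← ih (fun x => w1 x * Real.exp (f (fld (blk1 g) x)))
        (fun x => mul_pos (hw1 x) (Real.exp_pos _))]
      congr 1
      ext x
      ring
    simp_rw [e]
    have hmint : Integrable (fun g : Fin N1 → ℝ => W f N1 m1 (fun x => w1 x * Real.exp (f (fld g x))))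
        (gam (Fin N1)) :=
      V_integrable (gam (Fin N1)) (fun _ g x => f (fld g x)) hB0
        (fun _ x => hf.comp (fld_measurable x)) (fun _ _ _ => hB _) (List.replicate m1 0) 0 w1 hw1
    have hcomp : Integrable (fun g : Fin (N1 + N2) → ℝ =>
        W f N1 m1 (fun x => w1 x * Real.exp (f (fld (blk1 g) x)))) (gam (Fin (N1 + N2))) :=
      (mp_blk1 N1 N2).integrable_comp_of_integrable hmint
    rw [integral_add hcomp (integrable_const _)]
    rw [integral_const]
    have e3 : ∫ g : Fin (N1 + N2) → ℝ, W f N1 m1 (fun x => w1 x * Real.exp (f (fld (blk1 g) x)))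
        ∂(gam (Fin (N1 + N2)))
        = ∫ g : Fin N1 → ℝ, W f N1 m1 (fun x => w1 x * Real.exp (f (fld g x))) ∂(gam (Fin N1)) := by
      have h := (mp_blk1 N1 N2).map_eq
      conv_rhs => rw [← h]
      rw [integral_map (mp_blk1 N1 N2).measurable.aemeasurable]
      rw [h]
      exact hmint.aestronglyMeasurable
    rw [e3, V_W_mono]
    simp

end Vale.H15.P157
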