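import Mathlib
import Vale.Agent.H15.P157.Perc

open MeasureTheory ProbabilityTheory Finset Filter Topology

namespace Vale.H15.P157

/-- One-step comparison property of a potential. -/
def OneStep (f : ℝ → ℝ) : Prop :=
  ∀ (N1 N2 : ℕ), 0 < N1 → 0 < N2 → ∀ w : (Fin (N1 + N2) → Bool) → ℝ, (∀ x, 0 < w x) →
    ((N1 : ℝ) / (N1 + N2)) * V (gam _) (UB f N1 N2) [1] w
      + ((N2 : ℝ) / (N1 + N2)) * V (gam _) (UB f N1 N2) [2] w
      ≤ V (gam _) (UB f N1 N2) [0] w

lemma W_step {f : ℝ → ℝ} (hf : Measurable f) {B : ℝ} (hB0 : 0 ≤ B) (hB : ∀ s, |f s| ≤ B)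
    (N m : ℕ) (w : (Fin N → Bool) → ℝ) (hw : ∀ x, 0 < w x) :
    |W f N (m + 1) w - W f N m w| ≤ B := by
  have hU : ∀ (c : Fin 3) (x : Fin N → Bool), Measurable fun g : Fin N → ℝ => f (fld g x) :=
    fun _ x => hf.comp (fld_measurable x)
  have hi : Integrable (fun g : Fin N → ℝ => W f N m (fun x => w x * Real.exp (f (fld g x))))
        (gam (Fin N)) :=
      V_integrable (gam (Fin N)) (fun _ g x => f (fld g x)) hB0
        hU (fun _ _ _ => hB _) (List.replicate m 0) 0 w hw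
  have e : W f N (m + 1) w - W f N m w
      = ∫ g, (W f N m (fun x => w x * Real.exp (f (fld g x))) - W f N m w) ∂(gam (Fin N)) := by
    rw [integral_sub hi (integrable_const _), integral_const, V_W_mono]
    simp
  have hb : ∀ g : Fin N → ℝ, |W f N m (fun x => w x * Real.exp (f (fld g x))) - W f N m w| ≤ B := by
    intro g
    exact V_lip (gam (Fin N)) (fun _ g x => f (fld g x)) hB0 hU (fun _ _ _ => hB _)
      (fun x => f (fld g x)) (fun x => hB _) (List.replicate m 0) w hw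
  rw [e]
  calc _ ≤ ∫ g, |W f N m (fun x => w x * Real.exp (f (fld g x))) - W f N m w| ∂(gam (Fin N)) :=
        abs_integral_le_integral_abs
    _ ≤ ∫ g : Fin N → ℝ, B ∂(gam (Fin N)) := by
        apply integral_mono_of_nonneg
        · filter_upwards with g; exact abs_nonneg _
        · exact integrable_const _
        · filter_upwards with g; exact hb g
    _ = B := by simp

lemma W_add {f : ℝ → ℝ} (hf : Measurable f) {B : ℝ} (hB0 : 0 ≤ B) (hB : ∀ s, |f s| ≤ B)
    (N m k : ℕ) (w : (Fin N → Bool) → ℝ) (hw : ∀ x, 0 < w x) :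
    |W f N (m + k) w - W f N m w| ≤ k * B := by
  induction k with
  | zero => simp
  | succ k ih =>
    have h := W_step hf hB0 hB N (m + k) w hw
    calc |W f N (m + (k + 1)) w - W f N m w|
        = |(W f N (m + k + 1) w - W f N (m + k) w) + (W f N (m + k) w - W f N m w)| := by
          rw [← add_assoc]; congr 1; ring
      _ ≤ _ := abs_add_le _ _
      _ ≤ B + k * B := add_le_add h ih
      _ = _ := by push_cast; ring

lemma W_lip {f : ℝ → ℝ} (hf : Measurable f) {B : ℝ} (hB0 : 0 ≤ B) (hB : ∀ s, |f s| ≤ B)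
    (N m m' : ℕ) (w : (Fin N → Bool) → ℝ) (hw : ∀ x, 0 < w x) :
    |W f N m w - W f N m' w| ≤ B * |(m : ℝ) - m'| := by
  rcases le_total m m' with h | h
  · obtain ⟨k, rfl⟩ := Nat.exists_eq_add_of_le h
    have := W_add hf hB0 hB N m k w hw
    rw [abs_sub_comm]
    refine this.trans (le_of_eq ?_)
    push_cast
    rw [show (m : ℝ) - (m + k) = -(k : ℝ) by ring, abs_neg, abs_of_nonneg (Nat.cast_nonneg k)]
    ring
  · obtain ⟨k, rfl⟩ := Nat.exists_eq_add_of_le h
    have := W_add hf hB0 hB N m' k w hw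
    refine this.trans (le_of_eq ?_)
    push_cast
    rw [show (m' : ℝ) + k - m' = (k : ℝ) by ring, abs_of_nonneg (Nat.cast_nonneg k)]
    ring

/-- unnormalised expected log partition function at density `α` -/
noncomputable def aN (f : ℝ → ℝ) (α : ℝ) (N : ℕ) : ℝ := W f N ⌊α * N⌋₊ (fun _ => 1)

lemma superadd {f : ℝ → ℝ} (hf : Measurable f) {B : ℝ} (hB0 : 0 ≤ B) (hB : ∀ s, |f s| ≤ B)
    (h1 : OneStep f) {α : ℝ} (hα : 0 < α) (N1 N2 : ℕ) (hN1 : 0 < N1) (h12 : N1 ≤ N2) :
    aN f α N1 + aN f α N2 - B * (6 + α) * Real.sqrt N1 ≤ aN f α (N1 + N2) := by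
  have hN2 : 0 < N2 := lt_of_lt_of_le hN1 h12
  have n1 : (0 : ℝ) < N1 := by exact_mod_cast hN1
  have n2 : (0 : ℝ) < N2 := by exact_mod_cast hN2
  have hN : (0 : ℝ) < (N1 : ℝ) + N2 := by positivity
  set p1 : ℝ := (N1 : ℝ) / (N1 + N2) with hp1
  set p2 : ℝ := (N2 : ℝ) / (N1 + N2) with hp2
  have hp1' : 0 ≤ p1 := by positivity
  have hp2' : 0 ≤ p2 := by positivity
  have hp : p1 + p2 = 1 := by rw [hp1, hp2]; field_simp
  set M : ℕ := ⌊α * ((N1 + N2 : ℕ) : ℝ)⌋₊ with hM
  set M1 : ℕ := ⌊α * (N1 : ℝ)⌋₊ with hM1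
  set M2 : ℕ := ⌊α * (N2 : ℝ)⌋₊ with hM2
  have f0 : (M : ℝ) ≤ α * (N1 + N2) := by
    have := Nat.floor_le (a := α * ((N1 + N2 : ℕ) : ℝ)) (by positivity)
    rw [← hM] at this; push_cast at this; exact this
  have f0' : α * (N1 + N2) < (M : ℝ) + 1 := by
    have := Nat.lt_floor_add_one (α * ((N1 + N2 : ℕ) : ℝ))
    rw [← hM] at this; push_cast at this; exact this
  have f1 : (M1 : ℝ) ≤ α * N1 := Nat.floor_le (by positivity)
  have f1' : α * N1 < (M1 : ℝ) + 1 := Nat.lt_floor_add_one _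
  have f2 : (M2 : ℝ) ≤ α * N2 := Nat.floor_le (by positivity)
  have f2' : α * N2 < (M2 : ℝ) + 1 := Nat.lt_floor_add_one _
  have g1 : p1 * (N1 + N2) = N1 := by rw [hp1]; field_simp
  have hp1le : p1 ≤ 1 := by linarith
  have hc : |p1 * M - M1| ≤ 1 := by
    rw [abs_le]
    have u1 : p1 * M ≤ α * N1 := by
      have := mul_le_mul_of_nonneg_left f0 hp1'
      calc p1 * M ≤ p1 * (α * (N1 + N2)) := this
        _ = α * (p1 * (N1 + N2)) := by ring
        _ = α * N1 := by rw [g1]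
    have u2 : α * N1 - 1 ≤ p1 * M := by
      have h := mul_le_mul_of_nonneg_left f0'.le hp1'
      have : p1 * (α * (N1 + N2)) = α * N1 := by
        calc p1 * (α * (N1 + N2)) = α * (p1 * (N1 + N2)) := by ring
          _ = α * N1 := by rw [g1]
      rw [this] at h
      nlinarith
    constructor <;> linarith
  set A : ℝ := aN f α N1 + aN f α N2 - 4 * B with hA
  have hone : ∀ x : Fin (N1 + N2) → Bool, (0 : ℝ) < (fun _ => (1 : ℝ)) x := fun _ => one_pos
  have hbase : ∀ m1 m2 : ℕ, m1 + m2 = M → A - 2 * B * |(m1 : ℝ) - p1 * M|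
      ≤ V (gam _) (UB f N1 N2) (word 0 m1 m2) (fun _ => 1) := by
    intro m1 m2 hm
    have e := V_blocks hf hB0 hB N1 N2 m2 (fun _ => (1 : ℝ)) (fun _ => one_pos) m1
      (fun _ => (1 : ℝ)) (fun _ => one_pos)
    have e' : V (gam (Fin (N1 + N2))) (UB f N1 N2) (word 0 m1 m2) (fun _ => 1)
        = W f N1 m1 (fun _ => 1) + W f N2 m2 (fun _ => 1) := by
      rw [← e]
      unfold word
      simp
    rw [e']
    have l1 := W_lip hf hB0 hB N1 m1 M1 (fun _ => (1 : ℝ)) (fun _ => one_pos)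
    have l2 := W_lip hf hB0 hB N2 m2 M2 (fun _ => (1 : ℝ)) (fun _ => one_pos)
    have l1' := (abs_le.1 l1).1
    have l2' := (abs_le.1 l2).1
    have hmr : (m1 : ℝ) + m2 = M := by exact_mod_cast hm
    have d1 : |(m1 : ℝ) - M1| ≤ |(m1 : ℝ) - p1 * M| + 1 := by
      calc |(m1 : ℝ) - M1| = |((m1 : ℝ) - p1 * M) + (p1 * M - M1)| := by congr 1; ring
        _ ≤ _ := abs_add_le _ _
        _ ≤ _ := add_le_add le_rfl hc
    have d2 : |(m2 : ℝ) - M2| ≤ |(m1 : ℝ) - p1 * M| + 3 := by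
      have e2 : (m2 : ℝ) - M2 = -((m1 : ℝ) - p1 * M) + ((M1 : ℝ) - p1 * M) + (M - M1 - M2) := by
        rw [← hmr]; ring
      rw [e2]
      have t1 : |(M1 : ℝ) - p1 * M| ≤ 1 := by rw [abs_sub_comm]; exact hc
      have t2 : |(M : ℝ) - M1 - M2| ≤ 2 := by
        rw [abs_le]; constructor <;> linarith
      calc _ ≤ |(-((m1 : ℝ) - p1 * M) + ((M1 : ℝ) - p1 * M))| + |(M : ℝ) - M1 - M2| := abs_add_le _ _
        _ ≤ (|(-((m1 : ℝ) - p1 * M))| + |((M1 : ℝ) - p1 * M)|) + |(M : ℝ) - M1 - M2| := by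
            gcongr; exact abs_add_le _ _
        _ ≤ (|(m1 : ℝ) - p1 * M| + 1) + 2 := by
            rw [abs_neg]; gcongr
        _ = _ := by ring
    have k1 := mul_le_mul_of_nonneg_left d1 hB0
    have k2 := mul_le_mul_of_nonneg_left d2 hB0
    rw [hA]
    unfold aN
    rw [← hM1, ← hM2]
    linarith
  have hs : 0 < Real.sqrt N1 := Real.sqrt_pos.2 n1
  have main := V_interp (gam (Fin (N1 + N2))) (UB f N1 N2) hB0 (UB_meas hf N1 N2)
    (fun c g x => UB_bound hB N1 N2 c g x) p1 p2 hp1' hp2' hp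
    (h1 N1 N2 hN1 hN2) (fun _ => (1 : ℝ)) (fun _ => one_pos) M A (2 * B) (Real.sqrt N1) hs
    (by positivity) hbase M 0 0 (by omega)
  have e0 : V (gam (Fin (N1 + N2))) (UB f N1 N2) (word M 0 0) (fun _ => 1) = aN f α (N1 + N2) := by
    unfold aN W word
    rw [← hM]
    simp only [List.replicate_zero, List.nil_append]
    have key : ∀ (m : ℕ) (w : (Fin (N1 + N2) → Bool) → ℝ),
        V (gam (Fin (N1 + N2))) (UB f N1 N2) (List.replicate m 0) w
          = V (gam (Fin (N1 + N2))) (fun _ g x => f (fld g x)) (List.replicate m 0) w := by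
      intro m
      induction m with
      | zero => intro w; rfl
      | succ m ih =>
        intro w
        show ∫ g, V (gam (Fin (N1 + N2))) (UB f N1 N2) (List.replicate m 0)
            (fun x => w x * Real.exp (f (fld g x))) ∂(gam _)
          = ∫ g, V (gam (Fin (N1 + N2))) (fun _ g x => f (fld g x)) (List.replicate m 0)
            (fun x => w x * Real.exp (f (fld g x))) ∂(gam _)
        simp_rw [ih]
    exact key M _
  rw [e0] at main
  refine le_trans ?_ main
  rw [hA]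
  have hv : (M : ℝ) * (p1 * p2) ≤ α * N1 := by
    have q1 : (M : ℝ) * p1 ≤ α * N1 := by
      calc (M : ℝ) * p1 ≤ (α * (N1 + N2)) * p1 := mul_le_mul_of_nonneg_right f0 hp1'
        _ = α * (p1 * (N1 + N2)) := by ring
        _ = α * N1 := by rw [g1]
    have q2 : p2 ≤ 1 := by linarith
    calc (M : ℝ) * (p1 * p2) = ((M : ℝ) * p1) * p2 := by ring
      _ ≤ (α * N1) * 1 := mul_le_mul q1 q2 hp2' (by positivity)
      _ = α * N1 := mul_one _
  have hsq : Real.sqrt N1 * Real.sqrt N1 = N1 := Real.mul_self_sqrt n1.le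
  have hdiv : ((M : ℝ) * (p1 * p2)) / Real.sqrt N1 ≤ α * Real.sqrt N1 := by
    rw [div_le_iff₀ hs, mul_assoc, hsq]
    exact hv
  have hs1 : 1 ≤ Real.sqrt N1 := by
    rw [Real.one_le_sqrt]
    exact_mod_cast hN1
  have e3 : (((0 : ℕ) : ℝ) - p1 * (((0 : ℕ) : ℝ) + ((0 : ℕ) : ℝ))) ^ 2 = 0 := by simp
  rw [e3, zero_add]
  have z1 : B * (Real.sqrt N1 + (M : ℝ) * (p1 * p2) / Real.sqrt N1)
      ≤ B * (Real.sqrt N1 + α * Real.sqrt N1) := by gcongr
  have z2 : 4 * B ≤ 4 * B * Real.sqrt N1 := by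
    have := mul_le_mul_of_nonneg_left hs1 (by positivity : 0 ≤ 4 * B)
    linarith
  have z3 : 0 ≤ B * Real.sqrt N1 := by positivity
  have e4 : 2 * B / 2 = B := by ring
  rw [e4]
  nlinarith [z1, z2, z3]

lemma sqrt_ineq (a b : ℝ) (ha : 0 ≤ a) (hab : a ≤ b) :
    Real.sqrt a + 2 * Real.sqrt (a + b) ≤ 2 * Real.sqrt a + 2 * Real.sqrt b := by
  have hb : 0 ≤ b := ha.trans hab
  have h1 := Real.sq_sqrt ha
  have h2 := Real.sq_sqrt hb
  have h3 := Real.sq_sqrt (add_nonneg ha hb)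
  have h4 := Real.sqrt_nonneg a
  have h5 := Real.sqrt_nonneg b
  have h6 := Real.sqrt_nonneg (a + b)
  have h7 : Real.sqrt a ≤ Real.sqrt b := Real.sqrt_le_sqrt hab
  have h8 : 2 * Real.sqrt (a + b) ≤ Real.sqrt a + 2 * Real.sqrt b := by
    apply le_of_sq_le_sq _ (by positivity)
    nlinarith
  linarith

theorem limit_exists {f : ℝ → ℝ} (hf : Measurable f) {B : ℝ} (hB0 : 0 ≤ B) (hB : ∀ s, |f s| ≤ B)
    (h1 : OneStep f) {α : ℝ} (hα : 0 < α) :
    ∃ L : ℝ, Tendsto (fun N : ℕ => aN f α N / N) atTop (𝓝 L) := by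
  set K : ℝ := 2 * (B * (6 + α)) with hK
  have hK0 : 0 ≤ K := by positivity
  set u : ℕ → ℝ := fun N => K * Real.sqrt N - aN f α N with hu
  have ha0 : aN f α 0 = 0 := by
    unfold aN W
    simp [V]
  have hu0 : u 0 = 0 := by
    rw [hu]; simp [ha0]
  have key : ∀ m n : ℕ, 0 < m → m ≤ n → u (m + n) ≤ u m + u n := by
    intro m n hm hmn
    have h := superadd hf hB0 hB h1 hα m n hm hmn
    have h2 := sqrt_ineq (m : ℝ) n (Nat.cast_nonneg m) (by exact_mod_cast hmn)
    have h3 : B * (6 + α) * (Real.sqrt m + 2 * Real.sqrt (m + n))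
        ≤ B * (6 + α) * (2 * Real.sqrt m + 2 * Real.sqrt n) :=
      mul_le_mul_of_nonneg_left h2 (by positivity)
    simp only [hu, hK]
    push_cast
    nlinarith [h, h3]
  have hsub : Subadditive u := by
    intro m n
    rcases Nat.eq_zero_or_pos m with hm | hm
    · subst hm; rw [Nat.zero_add, hu0, zero_add]
    rcases Nat.eq_zero_or_pos n with hn | hn
    · subst hn; rw [Nat.add_zero, hu0, add_zero]
    rcases le_total m n with h | h
    · exact key m n hm h
    · rw [add_comm m n, add_comm (u m)]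
      exact key n m hn h
  have hbdd : BddBelow (Set.range fun n : ℕ => u n / n) := by
    refine ⟨-(Real.log 2 + α * B), ?_⟩
    rintro _ ⟨n, rfl⟩
    rcases Nat.eq_zero_or_pos n with hn | hn
    · subst hn
      simp
      have := Real.log_nonneg (by norm_num : (1 : ℝ) ≤ 2)
      nlinarith [mul_nonneg hα.le hB0]
    · have hn' : (0 : ℝ) < n := by exact_mod_cast hn
      have hb := V_bound_aux (gam (Fin n)) (fun _ g x => f (fld g x))
        (B := B) (fun _ x => hf.comp (fld_measurable x)) (fun _ _ _ => hB _)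
        (List.replicate ⌊α * n⌋₊ 0) (fun _ => (1 : ℝ)) (fun _ => one_pos)
      have hb2 : |aN f α n - Real.log (∑ x : Fin n → Bool, (1 : ℝ))| ≤ (⌊α * n⌋₊ : ℝ) * B := by
        have := hb
        rw [List.length_replicate] at this
        exact this
      have hlog : Real.log (∑ x : Fin n → Bool, (1 : ℝ)) = n * Real.log 2 := by
        simp
      rw [hlog] at hb2
      have hfl : (⌊α * n⌋₊ : ℝ) ≤ α * n := Nat.floor_le (by positivity)
      have hb3 := (abs_le.1 hb2).2
      have hb4 : (⌊α * n⌋₊ : ℝ) * B ≤ α * n * B := mul_le_mul_of_nonneg_right hfl hB0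
      have hs : 0 ≤ K * Real.sqrt n := by positivity
      show -(Real.log 2 + α * B) ≤ (K * Real.sqrt n - aN f α n) / n
      rw [le_div_iff₀ hn']
      nlinarith
  have ht := hsub.tendsto_lim hbdd
  have hsq : Tendsto (fun n : ℕ => K * Real.sqrt n / n) atTop (𝓝 0) := by
    have h2 : Tendsto (fun n : ℕ => K * (Real.sqrt n)⁻¹) atTop (𝓝 (K * 0)) := by
      apply Tendsto.const_mul
      apply tendsto_inv_atTop_zero.comp
      exact Real.tendsto_sqrt_atTop.comp tendsto_natCast_atTop_atTop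
    rw [mul_zero] at h2
    refine h2.congr' ?_
    filter_upwards [eventually_gt_atTop 0] with n hn
    have hn' : (0 : ℝ) < n := by exact_mod_cast hn
    have hs : 0 < Real.sqrt n := Real.sqrt_pos.2 hn'
    rw [mul_div_assoc]
    congr 1
    rw [eq_div_iff hn'.ne', inv_mul_eq_div, div_eq_iff hs.ne']
    exact (Real.mul_self_sqrt hn'.le).symm
  refine ⟨0 - hsub.lim, ?_⟩
  have := hsq.sub ht
  refine this.congr ?_
  intro n
  simp only [hu]
  ring

theorem pressure_eq {f : ℝ → ℝ} (hf : Measurable f) {B : ℝ} (hB : ∀ s, |f s| ≤ B)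
    (α : ℝ) (N : ℕ) (hN : 0 < N) : pressure f α N = aN f α N / N - Real.log 2 := by
  have hN' : (0 : ℝ) < N := by exact_mod_cast hN
  unfold pressure
  have h := ident (gam (Fin N)) (fun g x => f (fld g x)) (B := B)
    (fun x => hf.comp (fld_measurable x)) (fun _ _ => hB _) ⌊α * N⌋₊
    (fun _ => (1 / 2 ^ N : ℝ)) (fun _ => by positivity)
  have h' := ident (gam (Fin N)) (fun g x => f (fld g x)) (B := B)
    (fun x => hf.comp (fld_measurable x)) (fun _ _ => hB _) ⌊α * N⌋₊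
    (fun _ => (1 : ℝ)) (fun _ => by positivity)
  have e : ∀ G : Fin ⌊α * N⌋₊ → Fin N → ℝ,
      Real.log ((1 / 2 ^ N) * ∑ x : Fin N → Bool, Real.exp (∑ a, f (fld (G a) x)))
      = Real.log (∑ x : Fin N → Bool, 1 * Real.exp (∑ a, f (fld (G a) x))) - N * Real.log 2 := by
    intro G
    have hS : 0 < ∑ x : Fin N → Bool, Real.exp (∑ a, f (fld (G a) x)) :=
      Finset.sum_pos (fun x _ => Real.exp_pos _) Finset.univ_nonempty
    rw [Real.log_mul (by positivity) hS.ne']
    simp only [one_mul]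
    rw [one_div, Real.log_inv, Real.log_pow]
    ring
  simp_rw [e]
  have hint : Integrable (fun G : Fin ⌊α * N⌋₊ → Fin N → ℝ =>
      Real.log (∑ x : Fin N → Bool, 1 * Real.exp (∑ a, f (fld (G a) x))))
      (Measure.pi fun _ => gam (Fin N)) := by
    have hm : Measurable (fun G : Fin ⌊α * N⌋₊ → Fin N → ℝ =>
      Real.log (∑ x : Fin N → Bool, 1 * Real.exp (∑ a, f (fld (G a) x)))) := by
      apply Real.measurable_log.comp
      apply Finset.measurable_sum
      intro x _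
      apply Measurable.const_mul
      apply Measurable.exp
      apply Finset.measurable_sum
      intro a _
      exact hf.comp ((fld_measurable x).comp (measurable_pi_apply a))
    refine Integrable.of_bound (C := (⌊α * N⌋₊ : ℝ) * B
      + |Real.log (∑ x : Fin N → Bool, (1 : ℝ))|) hm.aestronglyMeasurable ?_
    filter_upwards with G
    rw [Real.norm_eq_abs]
    have h2 : ∀ x : Fin N → Bool, |∑ a, f (fld (G a) x)| ≤ (⌊α * N⌋₊ : ℝ) * B := by
      intro x
      calc |∑ a, f (fld (G a) x)| ≤ ∑ a, |f (fld (G a) x)| := Finset.abs_sum_le_sum_abs _ _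
        _ ≤ ∑ a : Fin ⌊α * N⌋₊, B := Finset.sum_le_sum fun a _ => hB _
        _ = _ := by simp
    have h3 := log_sum_bound (fun _ : Fin N → Bool => (1 : ℝ)) (fun x => ∑ a, f (fld (G a) x))
      (fun _ => one_pos) h2
    calc |Real.log (∑ x : Fin N → Bool, 1 * Real.exp (∑ a, f (fld (G a) x)))|
        = |(Real.log (∑ x : Fin N → Bool, 1 * Real.exp (∑ a, f (fld (G a) x)))
            - Real.log (∑ x : Fin N → Bool, (1 : ℝ)))
          + Real.log (∑ x : Fin N → Bool, (1 : ℝ))| := by congr 1; ring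
      _ ≤ _ := abs_add_le _ _
      _ ≤ _ := add_le_add h3 le_rfl
  rw [integral_sub hint (integrable_const _), integral_const]
  have h'' : ∫ G : Fin ⌊α * N⌋₊ → Fin N → ℝ,
      Real.log (∑ x : Fin N → Bool, 1 * Real.exp (∑ a, f (fld (G a) x)))
      ∂(Measure.pi fun _ => gam (Fin N)) = aN f α N := h'
  rw [h'']
  simp
  field_simp

theorem pressure_limit {f : ℝ → ℝ} (hf : Measurable f) {B : ℝ} (hB0 : 0 ≤ B) (hB : ∀ s, |f s| ≤ B)
    (h1 : OneStep f) {α : ℝ} (hα : 0 < α) :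
    ∃ L : ℝ, Tendsto (pressure f α) atTop (𝓝 L) := by
  obtain ⟨L, hL⟩ := limit_exists hf hB0 hB h1 hα
  refine ⟨L - Real.log 2, ?_⟩
  have h := hL.sub_const (Real.log 2)
  refine h.congr' ?_
  filter_upwards [eventually_gt_atTop 0] with n hn
  exact (pressure_eq hf hB α n hn).symm

end Vale.H15.P157
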