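import Mathlib
import Vale.Agent.H15.P157.Compare
import Vale.Agent.H15.P157.Limit

open MeasureTheory ProbabilityTheory Finset Filter Topology

namespace Vale.H15.P157

/-- comparison property of `ψ` for orthogonal blocks of unit vectors -/
def Comp (ψ : ℝ → ℝ) : Prop :=
  ∀ (n : ℕ) (q : (Fin n → Bool) → ℝ), (∀ x, 0 ≤ q x) → ∑ x, q x = 1 →
    ∀ (y1 y2 : (Fin n → Bool) → Fin n → ℝ), (∀ x x', ∑ i, y1 x i * y2 x' i = 0) →
    (∀ x, ∑ i, y1 x i ^ 2 = 1) → (∀ x, ∑ i, y2 x i ^ 2 = 1) →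
    ∀ p1 p2 : ℝ, 0 ≤ p1 → 0 ≤ p2 → p1 + p2 = 1 →
    p1 * ∫ g, Real.log (1 - tav ψ q y1 g) ∂(gam (Fin n))
        + p2 * ∫ g, Real.log (1 - tav ψ q y2 g) ∂(gam (Fin n))
      ≤ ∫ g, Real.log (1 - tav ψ q (fun x i => Real.sqrt p1 * y1 x i + Real.sqrt p2 * y2 x i) g)
          ∂(gam (Fin n))

noncomputable def v1 {N1 N2 : ℕ} (x : Fin (N1 + N2) → Bool) : Fin (N1 + N2) → ℝ :=
  Fin.addCases (motive := fun _ => ℝ) (fun j => sgn (x (Fin.castAdd N2 j)) / Real.sqrt N1) (fun _ => 0)

noncomputable def v2 {N1 N2 : ℕ} (x : Fin (N1 + N2) → Bool) : Fin (N1 + N2) → ℝ :=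
  Fin.addCases (motive := fun _ => ℝ) (fun _ => 0) (fun j => sgn (x (Fin.natAdd N1 j)) / Real.sqrt N2)

lemma v_orth {N1 N2 : ℕ} (x x' : Fin (N1 + N2) → Bool) : ∑ i, v1 x i * v2 x' i = 0 := by
  rw [Fin.sum_univ_add]
  simp [v1, v2, Fin.addCases_left, Fin.addCases_right]

lemma sgn_sq (b : Bool) : sgn b ^ 2 = 1 := by cases b <;> simp [sgn]

lemma v1_norm {N1 N2 : ℕ} (h : 0 < N1) (x : Fin (N1 + N2) → Bool) : ∑ i, v1 x i ^ 2 = 1 := by
  have hN : (0 : ℝ) < N1 := by exact_mod_cast h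
  rw [Fin.sum_univ_add]
  simp only [v1, Fin.addCases_left, Fin.addCases_right, div_pow, sgn_sq, Real.sq_sqrt hN.le]
  simp
  field_simp

lemma v2_norm {N1 N2 : ℕ} (h : 0 < N2) (x : Fin (N1 + N2) → Bool) : ∑ i, v2 x i ^ 2 = 1 := by
  have hN : (0 : ℝ) < N2 := by exact_mod_cast h
  rw [Fin.sum_univ_add]
  simp only [v2, Fin.addCases_left, Fin.addCases_right, div_pow, sgn_sq, Real.sq_sqrt hN.le]
  simp
  field_simp

lemma v1_fld {N1 N2 : ℕ} (g : Fin (N1 + N2) → ℝ) (x : Fin (N1 + N2) → Bool) :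
    ∑ i, v1 x i * g i = fld (blk1 g) (blk1 x) := by
  rw [Fin.sum_univ_add]
  simp only [v1, Fin.addCases_left, Fin.addCases_right, zero_mul, Finset.sum_const_zero, add_zero]
  unfold fld blk1
  rw [Finset.sum_div]
  apply Finset.sum_congr rfl
  intro i _
  ring

lemma v2_fld {N1 N2 : ℕ} (g : Fin (N1 + N2) → ℝ) (x : Fin (N1 + N2) → Bool) :
    ∑ i, v2 x i * g i = fld (blk2 g) (blk2 x) := by
  rw [Fin.sum_univ_add]
  simp only [v2, Fin.addCases_left, Fin.addCases_right, zero_mul, Finset.sum_const_zero, zero_add]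
  unfold fld blk2
  rw [Finset.sum_div]
  apply Finset.sum_congr rfl
  intro i _
  ring

lemma v0_fld {N1 N2 : ℕ} (h1 : 0 < N1) (h2 : 0 < N2) (g : Fin (N1 + N2) → ℝ)
    (x : Fin (N1 + N2) → Bool) :
    ∑ i, (Real.sqrt ((N1 : ℝ) / (N1 + N2)) * v1 x i + Real.sqrt ((N2 : ℝ) / (N1 + N2)) * v2 x i) * g i
      = fld g x := by
  have n1 : (0 : ℝ) < N1 := by exact_mod_cast h1
  have n2 : (0 : ℝ) < N2 := by exact_mod_cast h2
  have s1 : 0 < Real.sqrt N1 := Real.sqrt_pos.2 n1
  have s2 : 0 < Real.sqrt N2 := Real.sqrt_pos.2 n2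
  have s : 0 < Real.sqrt ((N1 : ℝ) + N2) := Real.sqrt_pos.2 (by positivity)
  rw [Fin.sum_univ_add]
  simp only [v1, v2, Fin.addCases_left, Fin.addCases_right, mul_zero, add_zero, zero_add]
  unfold fld
  rw [Fin.sum_univ_add, add_div, Finset.sum_div, Finset.sum_div]
  push_cast
  rw [Real.sqrt_div n1.le, Real.sqrt_div n2.le]
  congr 1
  · apply Finset.sum_congr rfl
    intro i _
    field_simp
  · apply Finset.sum_congr rfl
    intro i _
    field_simp

lemma log_split {N : ℕ} {f ψ : ℝ → ℝ} {C : ℝ} (hC : 0 < C) (hfψ : ∀ s, Real.exp (f s) = C * (1 - ψ s))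
    (w : (Fin N → Bool) → ℝ) (hw : ∀ x, 0 < w x) (s : (Fin N → Bool) → ℝ)
    (h1 : 0 < 1 - ∑ x, (w x / ∑ x', w x') * ψ (s x)) :
    Real.log (∑ x, w x * Real.exp (f (s x)))
      = Real.log ((∑ x, w x) * C) + Real.log (1 - ∑ x, (w x / ∑ x', w x') * ψ (s x)) := by
  have hS : 0 < ∑ x, w x := Finset.sum_pos (fun x _ => hw x) Finset.univ_nonempty
  rw [← Real.log_mul (by positivity) h1.ne']
  congr 1
  simp_rw [hfψ]
  have e1 : ∑ x, (w x / ∑ x', w x') * ψ (s x) = (∑ x, w x * ψ (s x)) / ∑ x', w x' := by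
    rw [Finset.sum_div]
    apply Finset.sum_congr rfl
    intro x _
    ring
  rw [e1]
  have e2 : ∑ x, w x * (C * (1 - ψ (s x))) = C * (∑ x, w x) - C * ∑ x, w x * ψ (s x) := by
    rw [Finset.mul_sum, Finset.mul_sum, ← Finset.sum_sub_distrib]
    apply Finset.sum_congr rfl
    intro x _
    ring
  rw [e2]
  field_simp

theorem oneStep_of_comp {f ψ : ℝ → ℝ} {C r : ℝ} (hC : 0 < C)
    (hfψ : ∀ s, Real.exp (f s) = C * (1 - ψ s)) (hψm : Measurable ψ) (hr1 : r < 1)
    (hr : ∀ s, |ψ s| ≤ r) (hcomp : Comp ψ) : OneStep f := by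
  intro N1 N2 h1 h2 w hw
  have n1 : (0 : ℝ) < N1 := by exact_mod_cast h1
  have n2 : (0 : ℝ) < N2 := by exact_mod_cast h2
  have hS : 0 < ∑ x, w x := Finset.sum_pos (fun x _ => hw x) Finset.univ_nonempty
  set q : (Fin (N1 + N2) → Bool) → ℝ := fun x => w x / ∑ x', w x' with hq
  have hq0 : ∀ x, 0 ≤ q x := fun x => div_nonneg (hw x).le hS.le
  have hq1 : ∑ x, q x = 1 := by
    rw [hq, ← Finset.sum_div, div_self hS.ne']
  have hp : (N1 : ℝ) / (N1 + N2) + (N2 : ℝ) / (N1 + N2) = 1 := by field_simp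
  have hc := hcomp (N1 + N2) q hq0 hq1 v1 v2 v_orth (v1_norm h1) (v2_norm h2)
    ((N1 : ℝ) / (N1 + N2)) ((N2 : ℝ) / (N1 + N2)) (by positivity) (by positivity) hp
  -- translate the three integrals
  have key : ∀ y : (Fin (N1 + N2) → Bool) → Fin (N1 + N2) → ℝ,
      ∫ g, Real.log (∑ x, w x * Real.exp (f (∑ i, y x i * g i))) ∂(gam (Fin (N1 + N2)))
        = Real.log ((∑ x, w x) * C) + ∫ g, Real.log (1 - tav ψ q y g) ∂(gam (Fin (N1 + N2))) := by
    intro y
    have hb : ∀ g, |tav ψ q y g| ≤ r := fun g => tav_bound hr q hq0 hq1 y g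
    have e1 : ∀ g : Fin (N1 + N2) → ℝ, Real.log (∑ x, w x * Real.exp (f (∑ i, y x i * g i)))
        = Real.log ((∑ x, w x) * C) + Real.log (1 - tav ψ q y g) := by
      intro g
      apply log_split hC hfψ w hw
      have := (abs_le.1 (hb g)).2
      show 0 < 1 - tav ψ q y g
      linarith
    simp_rw [e1]
    have hint : Integrable (fun g => Real.log (1 - tav ψ q y g)) (gam (Fin (N1 + N2))) := by
      have hm : Measurable (fun g => Real.log (1 - tav ψ q y g)) :=
        Real.measurable_log.comp ((tav_measurable hψm q y).const_sub 1)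
      refine Integrable.of_bound (C := |Real.log (1 - r)| + |Real.log (1 + r)|)
        hm.aestronglyMeasurable ?_
      filter_upwards with g
      have b1 := (abs_le.1 (hb g)).1
      have b2 := (abs_le.1 (hb g)).2
      have l1 : Real.log (1 - r) ≤ Real.log (1 - tav ψ q y g) :=
        Real.log_le_log (by linarith) (by linarith)
      have l2 : Real.log (1 - tav ψ q y g) ≤ Real.log (1 + r) :=
        Real.log_le_log (by linarith) (by linarith)
      rw [Real.norm_eq_abs, abs_le]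
      have a1 := neg_abs_le (Real.log (1 - r))
      have a2 := le_abs_self (Real.log (1 + r))
      have a3 := abs_nonneg (Real.log (1 - r))
      have a4 := abs_nonneg (Real.log (1 + r))
      constructor <;> linarith
    rw [integral_add (integrable_const _) hint, integral_const]
    simp
  have k1 := key v1
  have k2 := key v2
  have k0 := key (fun x i => Real.sqrt ((N1 : ℝ) / (N1 + N2)) * v1 x i
    + Real.sqrt ((N2 : ℝ) / (N1 + N2)) * v2 x i)
  simp_rw [v1_fld] at k1
  simp_rw [v2_fld] at k2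
  simp_rw [v0_fld h1 h2] at k0
  show ((N1 : ℝ) / (N1 + N2)) * (∫ g, Real.log (∑ x, w x * Real.exp (f (fld (blk1 g) (blk1 x)))) ∂(gam _))
      + ((N2 : ℝ) / (N1 + N2)) * (∫ g, Real.log (∑ x, w x * Real.exp (f (fld (blk2 g) (blk2 x)))) ∂(gam _))
      ≤ ∫ g, Real.log (∑ x, w x * Real.exp (f (fld g x))) ∂(gam _)
  rw [k1, k2, k0]
  have e : ((N1 : ℝ) / (N1 + N2)) * (Real.log ((∑ x, w x) * C)) + ((N2 : ℝ) / (N1 + N2))
      * (Real.log ((∑ x, w x) * C)) = Real.log ((∑ x, w x) * C) := by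
    rw [← add_mul, hp, one_mul]
  nlinarith [hc, e]

theorem comp_of_nonneg {Ω : Type*} [MeasurableSpace Ω] (P : Measure Ω) [IsFiniteMeasure P]
    (w A : Ω → ℝ) (hw : ∀ a, |w a| ≤ 1) (hw0 : ∀ a, 0 ≤ w a)
    (hwm : Measurable w) (hA : Measurable A) (hP : P.real Set.univ < 1) (ψ : ℝ → ℝ)
    (hψ : ∀ s : ℝ, ∫ ω, (w ω : ℂ) * Complex.exp (Complex.I * ((A ω * s : ℝ) : ℂ)) ∂P = (ψ s : ℂ)) :
    Comp ψ := by
  intro n q hq hq1 y1 y2 horth _ _ p1 p2 hp1 hp2 hp
  exact log_compare P w A hw hw0 hwm hA hP q hq hq1 ψ hψ y1 y2 horth p1 p2 hp1 hp2 hp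

/-- **Class A.** `e^f = C - φ` with `φ(s) = ∫ cos(a s) dν(a)` positive definite, `φ(0) < C`. -/
theorem classA (ν : Measure ℝ) [IsFiniteMeasure ν] (C : ℝ) (hC : ν.real Set.univ < C)
    {α : ℝ} (hα : 0 < α) :
    ∃ L : ℝ, Tendsto (pressure (fun s => Real.log (C - ∫ a, Real.cos (a * s) ∂ν)) α) atTop (𝓝 L) := by
  have hν0 : 0 ≤ ν.real Set.univ := measureReal_nonneg
  have hC0 : 0 < C := lt_of_le_of_lt hν0 hC
  set φ : ℝ → ℝ := fun s => ∫ a, Real.cos (a * s) ∂ν with hφ
  set P : Measure ℝ := (ENNReal.ofReal (1 / (2 * C))) • (ν + ν.map (fun a => -a)) with hP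
  have hPfin : IsFiniteMeasure P := by
    rw [hP]
    have : IsFiniteMeasure (ν.map (fun a => -a)) := Measure.isFiniteMeasure_map _ _
    exact Measure.smul_finite _ ENNReal.ofReal_ne_top
  have hPr : P.real Set.univ = ν.real Set.univ / C := by
    rw [hP, measureReal_ennreal_smul_apply, measureReal_add_apply]
    rw [ENNReal.toReal_ofReal (by positivity)]
    have : (ν.map (fun a => -a)).real Set.univ = ν.real Set.univ := by
      rw [measureReal_def, Measure.map_apply measurable_neg MeasurableSet.univ]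
      rfl
    rw [this]
    field_simp
    ring
  have hφb : ∀ s, |φ s| ≤ ν.real Set.univ := by
    intro s
    rw [← Real.norm_eq_abs]
    refine (norm_integral_le_of_norm_le_const (C := 1) ?_).trans (by rw [one_mul])
    filter_upwards with a
    exact Real.abs_cos_le_one _
  have hexpint : ∀ s : ℝ, Integrable (fun a : ℝ => Complex.exp (Complex.I * ((a * s : ℝ) : ℂ))) ν := by
    intro s
    refine Integrable.of_bound (C := 1) (by fun_prop) ?_
    filter_upwards with a
    rw [norm_cexp_I]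
  have hexpint' : ∀ s : ℝ, Integrable (fun a : ℝ => Complex.exp (Complex.I * ((-a * s : ℝ) : ℂ))) ν := by
    intro s
    refine Integrable.of_bound (C := 1) (by fun_prop) ?_
    filter_upwards with a
    rw [norm_cexp_I]
  have hψ : ∀ s : ℝ, ∫ a, ((1 : ℝ) : ℂ) * Complex.exp (Complex.I * ((a * s : ℝ) : ℂ)) ∂P
      = ((φ s / C : ℝ) : ℂ) := by
    intro s
    simp only [Complex.ofReal_one, one_mul]
    have hmapint : Integrable (fun a : ℝ => Complex.exp (Complex.I * ((a * s : ℝ) : ℂ)))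
        (ν.map (fun a => -a)) := by
      have : IsFiniteMeasure (ν.map (fun a => -a)) := Measure.isFiniteMeasure_map _ _
      refine Integrable.of_bound (C := 1) (by fun_prop) ?_
      filter_upwards with a
      rw [norm_cexp_I]
    rw [hP, integral_smul_measure, integral_add_measure (hexpint s) hmapint]
    rw [integral_map (measurable_neg.aemeasurable) (by fun_prop)]
    rw [← integral_add (hexpint s) (hexpint' s)]
    have e1 : ∀ a : ℝ, Complex.exp (Complex.I * ((a * s : ℝ) : ℂ))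
        + Complex.exp (Complex.I * ((-a * s : ℝ) : ℂ)) = ((2 * Real.cos (a * s) : ℝ) : ℂ) := by
      intro a
      push_cast
      rw [Complex.two_cos]
      congr 2
      · ring
      · ring
    simp_rw [e1]
    rw [integral_complex_ofReal, integral_const_mul, ENNReal.toReal_ofReal (by positivity)]
    rw [Complex.real_smul, ← Complex.ofReal_mul]
    congr 1
    have hφs : ∫ a, Real.cos (a * s) ∂ν = φ s := rfl
    rw [hφs]
    field_simp
  have hP1 : P.real Set.univ < 1 := by
    rw [hPr, div_lt_one hC0]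
    exact hC
  have hcomp : Comp (fun s => φ s / C) :=
    comp_of_nonneg P (fun _ => 1) (fun a => a) (fun _ => by simp) (fun _ => zero_le_one)
      measurable_const measurable_id hP1 _ hψ
  have hψm : Measurable (fun s => φ s / C) :=
    psi_measurable P (fun _ => 1) (fun a => a) measurable_const measurable_id _ hψ
  have hφm : Measurable φ := by
    have : φ = fun s => (φ s / C) * C := by ext s; field_simp
    rw [this]
    exact hψm.mul_const C
  have hpos : ∀ s, 0 < C - φ s := by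
    intro s
    have := (abs_le.1 (hφb s)).2
    linarith
  have hr : ∀ s, |φ s / C| ≤ ν.real Set.univ / C := by
    intro s
    rw [abs_div, abs_of_pos hC0]
    exact div_le_div_of_nonneg_right (hφb s) hC0.le
  have hone : OneStep (fun s => Real.log (C - φ s)) := by
    apply oneStep_of_comp (C := C) (r := ν.real Set.univ / C) (ψ := fun s => φ s / C) hC0 _ hψm
      (by rw [div_lt_one hC0]; exact hC) hr hcomp
    intro s
    rw [Real.exp_log (hpos s)]
    field_simp
  have hfm : Measurable (fun s => Real.log (C - φ s)) :=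
    Real.measurable_log.comp (hφm.const_sub C)
  set B : ℝ := |Real.log (C - ν.real Set.univ)| + |Real.log (C + ν.real Set.univ)| with hB
  have hBb : ∀ s, |Real.log (C - φ s)| ≤ B := by
    intro s
    have b1 := (abs_le.1 (hφb s)).1
    have b2 := (abs_le.1 (hφb s)).2
    have l1 : Real.log (C - ν.real Set.univ) ≤ Real.log (C - φ s) :=
      Real.log_le_log (by linarith) (by linarith)
    have l2 : Real.log (C - φ s) ≤ Real.log (C + ν.real Set.univ) :=
      Real.log_le_log (hpos s) (by linarith)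
    have a1 := neg_abs_le (Real.log (C - ν.real Set.univ))
    have a2 := le_abs_self (Real.log (C + ν.real Set.univ))
    have a3 := abs_nonneg (Real.log (C - ν.real Set.univ))
    have a4 := abs_nonneg (Real.log (C + ν.real Set.univ))
    rw [abs_le, hB]
    constructor <;> linarith
  exact pressure_limit hfm (by positivity) hBb hone hα

end Vale.H15.P157
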